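import Vale.Agent.P233.Gig.Main
import Vale.Agent.P233.H636.Final

/-!
# P233: the final statement from the parts

`MainThm` is literally the statement of the hand-in.
-/

open MeasureTheory
open scoped MeasureTheory ENNReal NNReal

universe u

namespace Vale.Agent.P233.H326

open Vale.Agent.P233 Vale.Agent.P233.Gig

/-- the statement of the hand-in -/
def MainThm : Prop :=
  ∀ (M : Type u) [MetricSpace M] [CompleteSpace M] [SecondCountableTopology M]
    [MeasurableSpace M] [BorelSpace M] (n : ℕ), 2 ≤ n → ∀ κ : ℝ,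
    (T.IsSecN M n κ ↔
      T.IsAlexN M n κ ∧ (μH[n] : Measure M).IsOpenPosMeasure ∧
        T.IsRCD (μH[n] : Measure M) ((n - 1) * κ) n)

/-- The parts imply the statement of the hand-in. -/
theorem mainThm_of_parts (hD1 : PartD1.{u}) (hD4 : PartD4.{u}) (hE : PartE.{u})
    (hF2 : PartF2.{u}) (hF34 : PartF34.{u}) : MainThm.{u} := by
  intro M _ _ _ _ _ n hn κ
  exact H636.final_iff hn fun h =>
    isAlexandrov_of_parts hD1 hD4 hE hF2 hF34 M n κ ⟨hn, h.1, h.2.1, h.2.2⟩

end Vale.Agent.P233.H326
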