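import Vale.Agent.P233.H326.Curv
import Vale.Agent.P233.Gig.Defs
import Mathlib.Data.Finsupp.Encodable

/-!
# A countable family of test functions, dense for the graph norm
-/

open MeasureTheory Filter Topology
open scoped ENNReal NNReal

universe u

namespace Vale.Agent.P233

section abstract

variable {M : Type*} [MeasurableSpace M] {m : Measure M} {C : Calc m}

/-- A countable family in `S`, closed under rational combinations, dense for the graph norm of the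
Laplacian. -/
structure DenseFam (C : Calc m) (S : Set (M →ₘ[m] ℝ)) (e : ℕ → M →ₘ[m] ℝ) : Prop where
  mem : ∀ i, e i ∈ S
  comb : ∀ c : ℕ →₀ ℚ, ∃ j, e j = c.sum fun i q => (q : ℝ) • e i
  dense : ∀ b h : M →ₘ[m] ℝ, C.IsLap b h → ∀ δ > 0, ∃ i,
    C.nrm2 (e i - b) + I ((C.lap (e i) - h) ^ 2) < δ
  denseW : ∀ f ∈ C.W, ∀ δ > 0, ∃ i, C.nrm2 (e i - f) < δ
  bdd : ∀ b ∈ S, ∀ K : ℝ, (∀ᵐ x ∂m, |b x| ≤ K) → (∀ᵐ x ∂m, C.Γ b b x ≤ K) →
    (∀ᵐ x ∂m, |C.lap b x| ≤ K) → ∀ δ > 0, ∃ i, (∀ᵐ x ∂m, |e i x| ≤ K + 1) ∧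
    (∀ᵐ x ∂m, C.Γ (e i) (e i) x ≤ K + 1) ∧ (∀ᵐ x ∂m, |C.lap (e i) x| ≤ K + 1) ∧
    C.nrm2 (e i - b) + I ((C.lap (e i) - C.lap b) ^ 2) < δ

/-- a subset of the test functions is separable for the graph norm -/
theorem exists_countable_graph [SigmaFinite m] [MeasurableSpace.CountablyGenerated M]
    (hC : IsGamma C) {S : Set (M →ₘ[m] ℝ)} (hS : S ⊆ C.Test) :
    ∃ D ⊆ S, D.Countable ∧ ∀ b ∈ S, ∀ δ > 0, ∃ d ∈ D,
      I ((d - b) ^ 2) + I ((C.lap d - C.lap b) ^ 2) < δ := by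
  have : Fact ((1 : ℝ≥0∞) ≤ 2) := ⟨by norm_num⟩
  have : Fact ((2 : ℝ≥0∞) ≠ ∞) := ⟨by simp⟩
  have : SecondCountableTopology (Lp ℝ 2 m) := inferInstance
  have h2 : ∀ b : S, MemLp (b : M →ₘ[m] ℝ) 2 m := fun b =>
    hC.memLp _ (hC.test_A (hS b.2)).1
  have hl2 : ∀ b : S, MemLp (C.lap b : M →ₘ[m] ℝ) 2 m := fun b => hC.lap2 (hS b.2)
  set Φ : S → Lp ℝ 2 m × Lp ℝ 2 m := fun b => ((h2 b).toLp, (hl2 b).toLp) with hΦ
  have hsep : TopologicalSpace.IsSeparable (Set.range Φ) :=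
    TopologicalSpace.IsSeparable.of_separableSpace _
  obtain ⟨t, ht, htc, htd⟩ := hsep.exists_countable_dense_subset
  choose Ψ hΨ using fun y : t => ht y.2
  refine ⟨Set.range fun y : t => ((Ψ y : S) : M →ₘ[m] ℝ), ?_, ?_, ?_⟩
  · rintro _ ⟨y, rfl⟩
    exact (Ψ y).2
  · have : Countable t := htc.to_subtype
    exact Set.countable_range _
  · intro b hb δ hδ
    have hb' : Φ ⟨b, hb⟩ ∈ closure t := htd ⟨_, rfl⟩
    rw [Metric.mem_closure_iff] at hb'
    obtain ⟨y, hy, hyd⟩ := hb' (Real.sqrt (δ / 4)) (Real.sqrt_pos.2 (by positivity))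
    refine ⟨_, ⟨⟨y, hy⟩, rfl⟩, ?_⟩
    set d : S := Ψ ⟨y, hy⟩ with hd
    have hyd' : Φ d = y := hΨ ⟨y, hy⟩
    rw [← hyd', Prod.dist_eq, max_lt_iff] at hyd
    have key : ∀ {f g : M →ₘ[m] ℝ} (hf : MemLp f 2 m) (hg : MemLp g 2 m),
        dist hf.toLp hg.toLp < Real.sqrt (δ / 4) → I ((g - f) ^ 2) < δ / 4 := by
      intro f g hf hg h
      have e1 : I ((g - f) ^ 2) = ‖hf.toLp - hg.toLp‖ ^ 2 := by
        rw [← norm_neg, neg_sub, I_sq_eq_norm (mem_sub hg hf)]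
        congr 2
        apply Lp.ext
        filter_upwards [(mem_sub hg hf).coeFn_toLp, Lp.coeFn_sub hg.toLp hf.toLp,
          hf.coeFn_toLp, hg.coeFn_toLp, sub_ae g f] with x a1 a2 a3 a4 a5
        rw [a1, a2, Pi.sub_apply, a3, a4, a5]
      rw [e1, ← Real.sq_sqrt (show 0 ≤ δ / 4 by positivity)]
      rw [dist_eq_norm] at h
      have := norm_nonneg (hf.toLp - hg.toLp)
      gcongr
    have k1 := key (h2 ⟨b, hb⟩) (h2 d) hyd.1
    have k2 := key (hl2 ⟨b, hb⟩) (hl2 d) hyd.2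
    linarith

/-- the energy is controlled by the graph norm -/
theorem IsGamma.nrm2_le_graph (hC : IsGamma C) {b b' h h' : M →ₘ[m] ℝ} (h1 : C.IsLap b h)
    (h2 : C.IsLap b' h') : C.nrm2 (b - b') ≤ 2 * (I ((b - b') ^ 2) + I ((h - h') ^ 2)) := by
  have hD := hC.toIsDir
  have h3 : C.IsLap (b - b') (h - h') := by
    have := hD.isLap_add h1 (hD.isLap_smul (-1) h2)
    have e1 : b + (-1 : ℝ) • b' = b - b' := by rw [neg_one_smul, sub_eq_add_neg]
    have e2 : h + (-1 : ℝ) • h' = h - h' := by rw [neg_one_smul, sub_eq_add_neg]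
    rwa [e1, e2] at this
  have hw2 := hC.memLp _ h3.1
  have a1 : I (C.Γ (b - b') (b - b')) = -I ((h - h') * (b - b')) := h3.2.2 _ h3.1
  have a2 := I_sq_nonneg ((b - b') + (h - h'))
  have e : ((b - b') + (h - h')) ^ 2
      = (b - b') ^ 2 + (2 : ℝ) • ((h - h') * (b - b')) + (h - h') ^ 2 := by
    algebra
  rw [e, I_add (mem_add (mem_sq hw2) (mem_smul _ (mem_mul_22 h3.2.1 hw2))) (mem_sq h3.2.1),
    I_add (mem_sq hw2) (mem_smul _ (mem_mul_22 h3.2.1 hw2)), I_smul] at a2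
  have a3 := I_sq_nonneg (b - b')
  have a4 := I_sq_nonneg (h - h')
  unfold Calc.nrm2
  rw [a1]
  linarith

/-- test functions with bounded Laplacian are dense for the graph norm -/
theorem IsGamma.testI_dense_graph [SigmaFinite m] (hC : IsGamma C) {κ : ℝ} (hB : C.BEi κ)
    {b h : M →ₘ[m] ℝ} (hb : C.IsLap b h) {δ : ℝ} (hδ : 0 < δ) :
    ∃ d ∈ C.TestI, I ((d - b) ^ 2) + I ((C.lap d - h) ^ 2) < δ := by
  have hD := hC.toIsDir
  obtain ⟨N, hN⟩ := exists_small κ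
  set l : ℝ := ((N : ℝ) + 1)⁻¹ with hl
  have hl0 : 0 < l := by positivity
  have hl2 := hN N le_rfl
  have hb2 := hC.memLp _ hb.1
  have hf2 : MemLp (b - l • h : M →ₘ[m] ℝ) 2 m := mem_sub hb2 (mem_smul _ hb.2.1)
  have hJ : C.J l (b - l • h) = b := by
    refine hD.J_eq hl0 ⟨hb.1, fun k hk => ?_⟩
    have hk2 := hC.memLp _ hk
    have e1 : I (C.Γ b k) = -I (h * k) := hb.2.2 _ hk
    have e2 : (b - l • h) * k = b * k - l • (h * k) := by algebra
    rw [e2, I_sub (mem_mul_22 hb2 hk2) (mem_smul _ (mem_mul_22 hb.2.1 hk2)), I_smul, e1]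
    ring
  set η : ℝ := δ / (1 + 4 * (l⁻¹) ^ 2) / 2 with hη
  have hη0 : 0 < η := by positivity
  obtain ⟨f1, h1, h1'⟩ := hC.dense_L2 (b - l • h) hf2 (η / 4) (by positivity)
  obtain ⟨f2, h3, h4, h5, h6⟩ := hC.dense_lip f1 h1 (η / 4) (by positivity)
  have hf22 := hC.memLp _ h3
  have h7 : I ((f2 - (b - l • h)) ^ 2) < η := by
    have h7 := I_sq_add_le (mem_sub (hC.memLp f1 h1) (hC.memLp f2 h3))
      (mem_sub hf2 (hC.memLp f1 h1))
    have e1 : (f1 - f2 + (b - l • h - f1)) ^ 2 = (f2 - (b - l • h)) ^ 2 := by ring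
    rw [e1] at h7
    have h8 := hD.I_sq_le_nrm2 (hD.sub_mem h1 h3)
    linarith
  have hd := hC.testI_J hB hl0 hl2 ⟨h3, h4⟩ h5
  refine ⟨_, hd, ?_⟩
  have k1 : I ((C.J l f2 - b) ^ 2) ≤ η := by
    have := hD.J_sq_le hl0 (mem_sub hf22 hf2)
    rw [hD.J_sub hl0 hf22 hf2, hJ] at this
    linarith
  have e3 : C.lap (C.J l f2) - h = l⁻¹ • ((C.J l f2 - b) + ((b - l • h) - f2)) := by
    rw [hD.lap_eq (hD.J_isLap hl0 hf22)]
    have : h = l⁻¹ • (l • h) := by rw [smul_smul, inv_mul_cancel₀ hl0.ne', one_smul]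
    conv_lhs => rw [this]
    rw [← smul_sub]
    congr 1
    abel
  have m1 : MemLp (C.J l f2 - b : M →ₘ[m] ℝ) 2 m := mem_sub (hC.memLp _ (hC.test_A hd.1).1) hb2
  have k2 := I_sq_add_le m1 (mem_sub hf2 hf22)
  have e4 : ((b - l • h) - f2) ^ 2 = (f2 - (b - l • h)) ^ 2 := by ring
  rw [e4] at k2
  have e5 : (C.lap (C.J l f2) - h) ^ 2
      = (l⁻¹) ^ 2 • ((C.J l f2 - b) + ((b - l • h) - f2)) ^ 2 := by
    rw [e3]
    algebra
  rw [e5, I_smul]
  have k3 : (l⁻¹) ^ 2 * I (((C.J l f2 - b) + ((b - l • h) - f2)) ^ 2) ≤ (l⁻¹) ^ 2 * (4 * η) := by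
    gcongr
    linarith
  have k4 : η * (1 + 4 * (l⁻¹) ^ 2) = δ / 2 := by
    rw [hη]; field_simp
  nlinarith

/-- **Block FD.** -/
theorem IsGamma.exists_denseFam [SigmaFinite m] [MeasurableSpace.CountablyGenerated M]
    (hC : IsGamma C) {κ : ℝ} (hB : C.BEi κ) {S : Set (M →ₘ[m] ℝ)} (hS : S ⊆ C.TestI)
    (h0 : (0 : M →ₘ[m] ℝ) ∈ S) (hadd : ∀ f ∈ S, ∀ g ∈ S, f + g ∈ S)
    (hsmul : ∀ (c : ℝ), ∀ f ∈ S, c • f ∈ S)
    (hd : ∀ b ∈ C.TestI, ∀ δ > 0, ∃ d ∈ S, I ((d - b) ^ 2) + I ((C.lap d - C.lap b) ^ 2) < δ) :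
    ∃ e : ℕ → M →ₘ[m] ℝ, DenseFam C S e := by
  have hD := hC.toIsDir
  have hT : S ⊆ C.Test := fun f hf => (hS hf).1
  -- the bounded pieces
  set SN : ℕ → Set (M →ₘ[m] ℝ) := fun N => {b | b ∈ S ∧ (∀ᵐ x ∂m, |b x| ≤ N) ∧
    (∀ᵐ x ∂m, C.Γ b b x ≤ N) ∧ ∀ᵐ x ∂m, |C.lap b x| ≤ N} with hSN
  choose D hDS hDc hDd using fun N : ℕ =>
    exists_countable_graph (m := m) hC (S := SN N) fun b hb => hT hb.1
  have hUc : (⋃ N, D N).Countable := Set.countable_iUnion hDc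
  have hU0 : (⋃ N, D N).Nonempty := by
    have h00 : (0 : M →ₘ[m] ℝ) ∈ SN 0 := by
      refine ⟨h0, ?_, ?_, ?_⟩
      · filter_upwards [zero_ae (M := M) (m := m)] with x a1
        rw [a1]; simp
      · have e : C.Γ (0 : M →ₘ[m] ℝ) 0 = 0 := by
          have := hC.smul_left 0 0 (hC.tW (hT h0)) 0 (hC.tW (hT h0))
          simpa using this
        rw [e]
        filter_upwards [zero_ae (M := M) (m := m)] with x a1
        rw [a1]; simp
      · have e : C.lap (0 : M →ₘ[m] ℝ) = 0 := by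
          have := hC.lap_smul hB 0 (hT h0)
          simpa using this
        rw [e]
        filter_upwards [zero_ae (M := M) (m := m)] with x a1
        rw [a1]; simp
    obtain ⟨d, hd, -⟩ := hDd 0 0 h00 1 one_pos
    exact ⟨d, Set.mem_iUnion.2 ⟨0, hd⟩⟩
  obtain ⟨d, hdr⟩ := hUc.exists_eq_range hU0
  have hdS : ∀ i, d i ∈ S := by
    intro i
    have : d i ∈ ⋃ N, D N := hdr ▸ Set.mem_range_self i
    obtain ⟨N, hN⟩ := Set.mem_iUnion.1 this
    exact (hDS N hN).1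
  -- rational combinations
  set T : (ℕ →₀ ℚ) → M →ₘ[m] ℝ := fun c => c.sum fun i q => (q : ℝ) • d i with hTdef
  have hTS : ∀ c, T c ∈ S := by
    intro c
    rw [hTdef]
    unfold Finsupp.sum
    refine Finset.sum_induction _ (fun f => f ∈ S) (fun f g hf hg => hadd f hf g hg) h0 ?_
    intro i _
    exact hsmul _ _ (hdS i)
  have hTadd : ∀ c c', T (c + c') = T c + T c' := by
    intro c c'
    rw [hTdef]
    refine Finsupp.sum_add_index' (fun i => by simp) (fun i q q' => ?_)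
    push_cast
    rw [add_smul]
  have hTsmul : ∀ (q : ℚ) c, T (q • c) = (q : ℝ) • T c := by
    intro q c
    rw [hTdef]
    simp only
    rw [Finsupp.sum_smul_index (fun i => by simp)]
    unfold Finsupp.sum
    rw [Finset.smul_sum]
    refine Finset.sum_congr rfl fun i _ => ?_
    push_cast
    rw [mul_smul]
  have hTsingle : ∀ i, T (Finsupp.single i 1) = d i := by
    intro i
    rw [hTdef]
    simp only
    rw [Finsupp.sum_single_index (by simp)]
    simp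
  obtain ⟨φ, hφ⟩ := exists_surjective_nat (ℕ →₀ ℚ)
  have hgraph : ∀ b h, C.IsLap b h → ∀ δ > 0, ∃ i,
      C.nrm2 (T (φ i) - b) + I ((C.lap (T (φ i)) - h) ^ 2) < δ := by
    intro b h hb δ hδ
    obtain ⟨b1, hb1, hb1'⟩ := hC.testI_dense_graph hB hb (δ := δ / 81) (by positivity)
    obtain ⟨b2, hb2, hb2'⟩ := hd b1 hb1 (δ / 81) (by positivity)
    -- a bound for `b2`
    obtain ⟨K1, hK1⟩ := mem_top_iff.1 (hC.test_A (hT hb2)).2
    obtain ⟨K2, hK2⟩ := mem_top_iff.1 (hC.test_Γ_top (hT hb2))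
    obtain ⟨K3, hK3⟩ := mem_top_iff.1 (hS hb2).2
    obtain ⟨N, hN⟩ := exists_nat_ge (|K1| + |K2| + |K3|)
    have hb2N : b2 ∈ SN N := by
      refine ⟨hb2, ?_, ?_, ?_⟩
      · filter_upwards [hK1] with x hx
        linarith [le_abs_self K1, abs_nonneg K2, abs_nonneg K3]
      · filter_upwards [hK2] with x hx
        linarith [le_abs_self K2, abs_nonneg K1, abs_nonneg K3, le_abs_self (C.Γ b2 b2 x)]
      · filter_upwards [hK3] with x hx
        linarith [le_abs_self K3, abs_nonneg K1, abs_nonneg K2]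
    obtain ⟨d', hd', hd''⟩ := hDd N b2 hb2N (δ / 81) (by positivity)
    have : d' ∈ Set.range d := hdr ▸ Set.mem_iUnion.2 ⟨N, hd'⟩
    obtain ⟨i, rfl⟩ := this
    obtain ⟨k, hk⟩ := hφ (Finsupp.single i 1)
    refine ⟨k, ?_⟩
    rw [hk, hTsingle]
    have hdi := hC.test_isLap (hT (hdS i))
    have n1 := hC.nrm2_le_graph hdi hb
    have s3 : ∀ {f g k : M →ₘ[m] ℝ}, MemLp f 2 m → MemLp g 2 m → MemLp k 2 m →
        I ((f + g + k) ^ 2) ≤ 4 * I (f ^ 2) + 4 * I (g ^ 2) + 2 * I (k ^ 2) := by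
      intro f g k hf hg hk
      have q1 := I_sq_add_le (mem_add hf hg) hk
      have q2 := I_sq_add_le hf hg
      linarith
    have m1 : MemLp (d i : M →ₘ[m] ℝ) 2 m := hC.memLp _ hdi.1
    have m2 : MemLp b2 2 m := hC.memLp _ (hC.tW (hT hb2))
    have m3 : MemLp b1 2 m := hC.memLp _ (hC.tW hb1.1)
    have m4 : MemLp b 2 m := hC.memLp _ hb.1
    have l1 : MemLp (C.lap (d i)) 2 m := hC.lap2 (hT (hdS i))
    have l2 : MemLp (C.lap b2) 2 m := hC.lap2 (hT hb2)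
    have l3 : MemLp (C.lap b1) 2 m := hC.lap2 hb1.1
    have q1 := s3 (mem_sub m1 m2) (mem_sub m2 m3) (mem_sub m3 m4)
    have q2 := s3 (mem_sub l1 l2) (mem_sub l2 l3) (mem_sub l3 hb.2.1)
    have e1 : d i - b2 + (b2 - b1) + (b1 - b) = d i - b := by abel
    have e2 : C.lap (d i) - C.lap b2 + (C.lap b2 - C.lap b1) + (C.lap b1 - h)
        = C.lap (d i) - h := by abel
    rw [e1] at q1
    rw [e2] at q2
    have p1 := I_sq_nonneg (d i - b2)
    have p2 := I_sq_nonneg (b2 - b1)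
    have p3 := I_sq_nonneg (b1 - b)
    have p4 := I_sq_nonneg (C.lap (d i) - C.lap b2)
    have p5 := I_sq_nonneg (C.lap b2 - C.lap b1)
    have p6 := I_sq_nonneg (C.lap b1 - h)
    have p7 := I_sq_nonneg (d i - b)
    have p8 := I_sq_nonneg (C.lap (d i) - h)
    linarith
  refine ⟨fun k => T (φ k), fun k => hTS _, fun c => ?_, hgraph, fun f hf δ hδ => ?_,
    fun b hb K k1 k2 k3 δ hδ => ?_⟩
  · -- closure under rational combinations
    obtain ⟨j, hj⟩ := hφ (c.sum fun i q => q • φ i)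
    refine ⟨j, ?_⟩
    rw [hj]
    unfold Finsupp.sum
    have : ∀ s : Finset ℕ, T (∑ i ∈ s, c i • φ i) = ∑ i ∈ s, ((c i : ℚ) : ℝ) • T (φ i) := by
      intro s
      induction s using Finset.induction_on with
      | empty =>
        rw [Finset.sum_empty, Finset.sum_empty, hTdef]
        simp
      | insert a s ha ih => rw [Finset.sum_insert ha, Finset.sum_insert ha, hTadd, hTsmul, ih]
    exact this _
  · -- density in `W`
    obtain ⟨n, hn⟩ := ((hD.J_tendsto_W hf).eventually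
      (gt_mem_nhds (show (0 : ℝ) < δ / 4 by positivity))).exists
    have hl : (0 : ℝ) < ((n : ℝ) + 1)⁻¹ := by positivity
    have hL := hD.J_isLap hl (hC.memLp _ hf)
    obtain ⟨i, hi⟩ := hgraph _ _ hL (δ / 4) (by positivity)
    refine ⟨i, ?_⟩
    have hW := hC.tW (hT (hTS (φ i)))
    have q := hD.nrm2_add_le (hD.sub_mem hW hL.1) (hD.sub_mem hL.1 hf)
    have e1 : T (φ i) - C.J ((n : ℝ) + 1)⁻¹ f + (C.J ((n : ℝ) + 1)⁻¹ f - f) = T (φ i) - f := by
      abel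
    rw [e1] at q
    have p := I_sq_nonneg (C.lap (T (φ i))
      - ((n : ℝ) + 1)⁻¹⁻¹ • (C.J ((n : ℝ) + 1)⁻¹ f - f))
    linarith
  · -- bounded approximation
    obtain ⟨N, hN, hN'⟩ : ∃ N : ℕ, K ≤ N ∧ (N : ℝ) ≤ |K| + 1 ∧ (0 ≤ K → (N : ℝ) ≤ K + 1) := by
      refine ⟨⌈K⌉₊, Nat.le_ceil K, ?_, fun h => (Nat.ceil_lt_add_one h).le⟩
      rcases le_or_gt 0 K with h | h
      · rw [abs_of_nonneg h]; exact (Nat.ceil_lt_add_one h).le
      · rw [Nat.ceil_eq_zero.2 h.le]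
        have := abs_nonneg K
        push_cast
        linarith
    rcases lt_or_ge K 0 with hK | hK
    · -- no such `b` unless the measure is zero
      have hm : ∀ᵐ x ∂m, False := by
        filter_upwards [k1] with x hx
        linarith [abs_nonneg (b x)]
      obtain ⟨i, hi⟩ := hgraph b (C.lap b) (hC.test_isLap (hT hb)) δ hδ
      refine ⟨i, ?_, ?_, ?_, hi⟩
      · filter_upwards [hm] with x hx using hx.elim
      · filter_upwards [hm] with x hx using hx.elim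
      · filter_upwards [hm] with x hx using hx.elim
    · have hbN : b ∈ SN N := by
        refine ⟨hb, ?_, ?_, ?_⟩
        · filter_upwards [k1] with x hx using hx.trans hN
        · filter_upwards [k2] with x hx using hx.trans hN
        · filter_upwards [k3] with x hx using hx.trans hN
      obtain ⟨d', hd', hd''⟩ := hDd N b hbN (δ / 4) (by positivity)
      have hdN := hDS N hd'
      have : d' ∈ Set.range d := hdr ▸ Set.mem_iUnion.2 ⟨N, hd'⟩
      obtain ⟨i, rfl⟩ := this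
      obtain ⟨k, hk⟩ := hφ (Finsupp.single i 1)
      refine ⟨k, ?_⟩
      rw [hk, hTsingle]
      have hNK := hN'.2 hK
      refine ⟨?_, ?_, ?_, ?_⟩
      · filter_upwards [hdN.2.1] with x hx using hx.trans hNK
      · filter_upwards [hdN.2.2.1] with x hx using hx.trans hNK
      · filter_upwards [hdN.2.2.2] with x hx using hx.trans hNK
      · have n1 := hC.nrm2_le_graph (hC.test_isLap (hT (hdS i))) (hC.test_isLap (hT hb))
        have p7 := I_sq_nonneg (d i - b)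
        have p8 := I_sq_nonneg (C.lap (d i) - C.lap b)
        linarith

/-- **FD1.** A countable family of test functions with bounded Laplacian. -/
theorem IsGamma.exists_denseFam_testI [SigmaFinite m] [MeasurableSpace.CountablyGenerated M]
    (hC : IsGamma C) {κ : ℝ} (hB : C.BEi κ) :
    ∃ e : ℕ → M →ₘ[m] ℝ, DenseFam C C.TestI e := by
  refine hC.exists_denseFam hB subset_rfl (hC.testI_zero hB)
    (fun f hf g hg => hC.testI_add hB hf hg) (fun c f hf => hC.testI_smul hB c hf) ?_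
  intro b hb δ hδ
  refine ⟨b, hb, ?_⟩
  rw [sub_self, sub_self]
  have : (0 : M →ₘ[m] ℝ) ^ 2 = 0 := by ring
  rw [this, I_zero]
  linarith

namespace DenseFam

variable {S : Set (M →ₘ[m] ℝ)} {e : ℕ → M →ₘ[m] ℝ}

/-- the form of `IsHess.range` -/
theorem denseW' (hC : IsDir C) (hS : ∀ f ∈ S, f ∈ C.W) (h : DenseFam C S e) (f : M →ₘ[m] ℝ) (hf : f ∈ C.W) {δ : ℝ} (hδ : 0 < δ) :
    ∃ i, C.nrm2 (f - e i) < δ := by
  obtain ⟨i, hi⟩ := h.denseW f hf δ hδ
  refine ⟨i, ?_⟩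
  rwa [hC.nrm2_sub_comm hf (hS _ (h.mem i))]

theorem smul_mem (h : DenseFam C S e) (q : ℚ) (i : ℕ) : ∃ j, e j = (q : ℝ) • e i := by
  obtain ⟨j, hj⟩ := h.comb (Finsupp.single i q)
  refine ⟨j, ?_⟩
  rw [hj, Finsupp.sum_single_index (by simp)]

theorem add_mem (h : DenseFam C S e) (i k : ℕ) : ∃ j, e j = e i + e k := by
  obtain ⟨j, hj⟩ := h.comb (Finsupp.single i 1 + Finsupp.single k 1)
  refine ⟨j, ?_⟩
  rw [hj, Finsupp.sum_add_index' (by simp) (fun i q q' => by push_cast; rw [add_smul]),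
    Finsupp.sum_single_index (by simp), Finsupp.sum_single_index (by simp)]
  simp

/-- a sequence of the family which converges in the graph norm -/
theorem seq (hC : IsDir C) (hS : ∀ f ∈ S, f ∈ C.W) (h : DenseFam C S e) {b g : M →ₘ[m] ℝ} (hb : C.IsLap b g) :
    ∃ i : ℕ → ℕ, Tendsto (fun n => C.nrm2 (e (i n) - b)) atTop (𝓝 0) ∧
      Tendsto (fun n => I ((C.lap (e (i n)) - g) ^ 2)) atTop (𝓝 0) := by
  choose i hi using fun n : ℕ => h.dense b g hb (((n : ℝ) + 1)⁻¹) (by positivity)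
  have h0 : Tendsto (fun n : ℕ => ((n : ℝ) + 1)⁻¹) atTop (𝓝 0) :=
    tendsto_inv_atTop_zero.comp (tendsto_atTop_add_const_right _ _ tendsto_natCast_atTop_atTop)
  refine ⟨i, ?_, ?_⟩
  · refine squeeze_zero (fun n => ?_) (fun n => ?_) h0
    · exact hC.nrm2_nonneg (hC.sub_mem (hS _ (h.mem _)) hb.1)
    · have := I_sq_nonneg (C.lap (e (i n)) - g)
      linarith [hi n]
  · refine squeeze_zero (fun n => I_sq_nonneg _) (fun n => ?_) h0
    have : 0 ≤ C.nrm2 (e (i n) - b) := hC.nrm2_nonneg (hC.sub_mem (hS _ (h.mem _)) hb.1)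
    linarith [hi n]

end DenseFam

end abstract

/-! ### test functions of bounded support -/

section metric

variable {M : Type u} [MetricSpace M] [MeasurableSpace M] [BorelSpace M]
  [SecondCountableTopology M] {m : Measure M}

open H326

/-- the standing hypotheses give the abstract data -/
theorem Std.base {K N : ℝ} (h : Std m K N) : Base m K N := by
  have hC : IsGamma (sob m) := isGamma_sob h.hfin h.rcd.quadratic h.rcd.sobolev_to_lipschitz
  exact ⟨h.hN, h.hfin, hC, h.rcd.bochner, hC.bei h.hN h.rcd.bochner, sigmaFinite_of_ball h.hfin,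
    h.rcd.sobolev_to_lipschitz, h.rcd.quadratic⟩

/-- test functions of bounded support are dense in the graph norm -/
theorem H326.Base.tb_dense [Nonempty M] {K N : ℝ} (h : Base m K N) {b : M →ₘ[m] ℝ} (hb : b ∈ (sob m).TestI)
    {δ : ℝ} (hδ : 0 < δ) : ∃ d ∈ TB (sob m),
      I ((d - b) ^ 2) + I (((sob m).lap d - (sob m).lap b) ^ 2) < δ := by
  have hsf := h.sf
  have hC := h.hC
  have hB := h.hB
  have hD := hC.toIsDir
  obtain ⟨x₀⟩ := ‹Nonempty M›
  obtain ⟨χ, θ, Λ, h1, h2, h3, h4, h5, h6, h7, h8, h9, h10⟩ :=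
    cut_seq h.hfin hC h.hN h.hBN x₀
  have hcv := hC.Cv_cut hB h1 h4 h7 h8 h9 h10 hb.1
  have e1 := (hcv.W.eventually (gt_mem_nhds (show (0 : ℝ) < δ / 2 by positivity)))
  have e2 := (hcv.lap.eventually (gt_mem_nhds (show (0 : ℝ) < δ / 2 by positivity)))
  obtain ⟨n, hn1, hn2⟩ := (e1.and e2).exists
  refine ⟨χ n * b, ⟨hC.testI_mul hB (h1 n) hb, θ n, h2 n, ?_, ?_⟩, ?_⟩
  · rw [← mul_assoc, h5 n]
  · exact h6 n
  · have := hD.I_sq_le_nrm2 (hD.sub_mem (hC.tW (hC.testI_mul hB (h1 n) hb).1) (hC.tW hb.1))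
    linarith

/-- **FD2.** A countable family of test functions with bounded Laplacian and bounded support. -/
theorem H326.Base.exists_denseFam [Nonempty M] {K N : ℝ} (h : Base m K N) :
    ∃ e : ℕ → M →ₘ[m] ℝ, DenseFam (sob m) (TB (sob m)) e := by
  have hsf := h.sf
  obtain ⟨x₀⟩ := ‹Nonempty M›
  have hM := isMod_TB h.hC h.hB x₀
  exact h.hC.exists_denseFam h.hB (fun f hf => hf.1) hM.zero hM.add hM.smul
    fun b hb δ hδ => h.tb_dense hb hδ

theorem Std.exists_denseFam {K N : ℝ} (h : Std m K N) :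
    ∃ e : ℕ → M →ₘ[m] ℝ, DenseFam (sob m) (TB (sob m)) e := by
  have : Nonempty M := ⟨h.rcd.growth.choose⟩
  exact h.base.exists_denseFam

end metric

end Vale.Agent.P233
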