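import Vale.Agent.P233.H236.Main

/-!
# From the distributional sectional curvature bound to the curvature functional on gradients

No properness is used.
-/

open MeasureTheory Filter Topology
open scoped ENNReal NNReal InnerProductSpace

universe u

namespace Vale.Agent.P233.H326

open Vale.Agent.P233 Vale.Agent.P233.H236

set_option linter.unusedSectionVars false

variable {M : Type u} [MetricSpace M] [MeasurableSpace M] [BorelSpace M]
  [SecondCountableTopology M] {m : Measure M}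

/-- the abstract data of an `RCD(K,N)` space -/
structure Base (m : Measure M) (K N : ℝ) : Prop where
  hN : 0 < N
  hfin : ∀ (x : M) (r : ℝ), m (Metric.ball x r) < ∞
  hC : IsGamma (sob m)
  hBN : (sob m).BE K N
  hB : (sob m).BEi K
  sf : SigmaFinite m
  sl : ∀ f ∈ (sob m).W, slope f ≤ 1 → ∃ u : M → ℝ, LipschitzWith 1 u ∧ f =ᵐ[m] u
  quad : ∀ f ∈ (sob m).W, ∀ g ∈ (sob m).W,
    ∫ x, (slope (f + g) ^ 2) x ∂m + ∫ x, (slope (f - g) ^ 2) x ∂m
      = 2 * ∫ x, (slope f ^ 2) x ∂m + 2 * ∫ x, (slope g ^ 2) x ∂m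

/-- an `RCD(K,N)` space satisfies the axioms of the abstract calculus -/
theorem base_of_rcd {K N : ℝ} (hN : 0 < N) (h : T.IsRCD m K N) : Base m K N := by
  have hS := T_rcd h
  have hR := isRCD_of_S hS
  have hfin := ball_lt_top_of_growth hR.growth
  have hC : IsGamma (sob m) := isGamma_sob hfin hR.quadratic hR.sobolev_to_lipschitz
  exact ⟨hN, hfin, hC, hR.bochner, hC.bei hN hR.bochner, sigmaFinite_of_ball hfin,
    hR.sobolev_to_lipschitz, hR.quadratic⟩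

/-- cut-off functions -/
theorem Base.exists_isCut {K N : ℝ} (h : Base m K N) :
    ∃ χ : ℕ → M →ₘ[m] ℝ, IsCut (sob m) χ := by
  rcases isEmpty_or_nonempty M with hM | ⟨⟨x₀⟩⟩
  · refine ⟨fun _ => 0, fun _ => h.hC.test_zero h.hB, fun _ => ?_, ?_, fun _ => 0,
      tendsto_const_nhds, fun _ => ?_⟩
    · exact Eventually.of_forall fun x => (hM.false x).elim
    · exact Eventually.of_forall fun x => (hM.false x).elim
    · exact Eventually.of_forall fun x => (hM.false x).elim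
  · obtain ⟨χ, θ, Λ, h1, h2, h3, h4, h5, h6, h7, h8, h9, h10⟩ :=
      cut_seq h.hfin h.hC h.hN h.hBN x₀
    refine ⟨χ, fun n => (h1 n).1, h4, h7, fun k => Λ * ((k : ℝ) + 1)⁻¹, ?_, fun n => ?_⟩
    · have : Tendsto (fun k : ℕ => ((k : ℝ) + 1)⁻¹) atTop (𝓝 0) :=
        tendsto_inv_atTop_zero.comp (tendsto_atTop_add_const_right _ _
          tendsto_natCast_atTop_atTop)
      simpa using this.const_mul Λ
    · filter_upwards [h10 n] with x hx
      exact (le_abs_self _).trans hx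

/-- gradients and covariant derivatives with values in a Hilbert space -/
theorem Base.exists_grad {K N : ℝ} (h : Base m K N) :
    ∃ (Gr : (M →ₘ[m] ℝ) → M → lp (fun _ : ℕ => ℝ) 2)
      (U : (M →ₘ[m] ℝ) → (M →ₘ[m] ℝ) → M → lp (fun _ : ℕ => ℝ) 2),
      IsGrad (sob m) Gr ∧ (∀ f, StronglyMeasurable (Gr f)) ∧ IsHU (sob m) Gr U := by
  have hsf := h.sf
  obtain ⟨Gr, hG, hGm⟩ := h.hC.toIsDir.exists_grad
  obtain ⟨U, hU⟩ := h.hC.exists_HU h.hB hG
  exact ⟨Gr, U, hG, hGm, hU⟩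

variable {E : Type*} [NormedAddCommGroup E] [InnerProductSpace ℝ E] {Gr : (M →ₘ[m] ℝ) → M → E}
variable {U : (M →ₘ[m] ℝ) → (M →ₘ[m] ℝ) → M → E}

/-- **Block G1.** The distributional sectional curvature bound, for gradients. -/
theorem curv_pos [CompleteSpace E] {κ K N : ℝ} (h : Base m K N)
    (hD : T.DistSecGE (T.sob m) κ) (hG : IsGrad (sob m) Gr) (hU : IsHU (sob m) Gr U) :
    ∀ a ∈ (sob m).Test, ∀ b ∈ (sob m).Test, ∀ f ∈ (sob m).Test, 0 ≤ f →
      0 ≤ I ((sob m).rkI (UUof m U) κ a b b a f) := by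
  have hsf := h.sf
  have hC := h.hC
  have hB := h.hB
  have hcov : ∀ {H : Type u} [NormedAddCommGroup H] [InnerProductSpace ℝ H] {ι : T.VF M → H},
      (S.sob m).IsL2TM ι →
      ∀ X' Y' : List ((M →ₘ[m] ℝ) × (M →ₘ[m] ℝ)), (sob m).IsTestV X' →
      (sob m).IsTestV Y' → (∃ V, (sob m).IsCov (fun X' => ι (coeV X')) X' Y' V) ∧
      (∃ V, (sob m).IsCovT (fun X' => ι (coeV X')) X' Y' V) := by
    intro H _ _ ι hιS X' Y' hX hY
    have hcs : CompleteSpace H := hιS.1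
    have hι' := isL2TM_coe hC hιS
    exact ⟨(covE_rep hC hB hG hU hι' hX hY).1, (covTE_rep hC hB hG hU hι' hX hY).1⟩
  obtain ⟨χ, hχ⟩ := h.exists_isCut
  obtain ⟨H, i1, i2, ι, hι, hD⟩ := hD
  have hιS : (S.sob m).IsL2TM ι := hι
  have hcs : CompleteSpace H := hι.1
  have hι' := isL2TM_coe hC hιS
  have hsec : ∀ X' Y' : List ((M →ₘ[m] ℝ) × (M →ₘ[m] ℝ)), (sob m).IsTestV X' →
      (sob m).IsTestV Y' → ∀ F ∈ (sob m).Test, 0 ≤ F →
      κ * I (F * ((sob m).ip X' X' * (sob m).ip Y' Y' - (sob m).ip X' Y' ^ 2))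
        ≤ (sob m).curv (fun X' => ι (coeV X')) X' Y' Y' X' F := by
    intro X' Y' hX' hY' F hF hF0
    have rX := RV_coeV hX'
    have rY := RV_coeV hY'
    obtain ⟨A, B, D, E, F₁, G, hA, hB', hD', hE, hF1, hG', hle⟩ :=
      hD _ _ rX.testV rY.testV F ((R.coe F).test_iff.2 hF) (nonneg_iff_ae.1 hF0)
    have h1 := (curvEq_iff hC hB hι (hcov hιS) rX rY rY rX (R.coe F) hF).1
      ⟨A, B, D, E, E, F₁, G, hA, hB', hD', hE, hE, hF1, hG', rfl⟩
    rw [← h1]
    refine le_trans (le_of_eq ?_) hle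
    congr 1
    exact (R.int ((R.coe F).mul (R.sub ((rX.ip rX hC).mul (rY.ip rY hC))
      (rX.ip rY hC).sq))).symm
  exact pos_grad hC hB hG hU hχ hι' hsec

end Vale.Agent.P233.H326

namespace Vale.Agent.P233

variable {M : Type*} [MeasurableSpace M] {m : Measure M}

/-- the value of `rkI` for the weight `1` -/
noncomputable def Calc.rk1 (C : Calc m) (UU : UUT m) (κ : ℝ) (a b c d : M →ₘ[m] ℝ) :
    M →ₘ[m] ℝ :=
  -(C.lap a * C.hess c b d) + C.lap b * C.hess c a d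
    + (-UU d a c b + UU d b c a - UU b a c d + UU a b c d)
    - κ • (C.Γ a d * C.Γ b c - C.Γ a b * C.Γ d c)

end Vale.Agent.P233

namespace Vale.Agent.P233.H326

open Vale.Agent.P233.H236

section const

variable {M : Type*} [MeasurableSpace M] {m : Measure M} {C : Calc m}
variable {χ : ℕ → M →ₘ[m] ℝ} (hχ : IsCut C χ) (hC : IsGamma C) {κ κ' : ℝ} (hB : C.BEi κ)
variable {a b c d f g h φ : M →ₘ[m] ℝ} {UU : UUT m} (hUU : C.IsUU UU)

include hC hB hUU

theorem rk1_mem (ha : a ∈ C.Test) (hb : b ∈ C.Test) (hc : c ∈ C.Test) (hd : d ∈ C.Test) :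
    MemLp (C.rk1 UU κ' a b c d) 1 m := by
  have aW := hC.tW ha
  have bW := hC.tW hb
  have dW := hC.tW hd
  have cW := hC.tW hc
  have hh1 := hC.hess_mem2 hB hc hb hd
  have hh2 := hC.hess_mem2 hB hc ha hd
  have u1 := hUU.mem _ hd _ ha _ hc _ hb
  have u2 := hUU.mem _ hd _ hb _ hc _ ha
  have u3 := hUU.mem _ hb _ ha _ hc _ hd
  have u4 := hUU.mem _ ha _ hb _ hc _ hd
  refine mem_sub (mem_add (mem_add (mem_neg (mem_mul_22 (hC.lap2 ha) hh1))
    (mem_mul_22 (hC.lap2 hb) hh2)) (mem_add (mem_sub (mem_add (mem_neg u1) u2) u3) u4))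
    (mem_smul _ (mem_sub ?_ ?_))
  · exact mem_mul_top (hC.Γ_mem hB ha hd).2 (hC.Γ_mem1 bW cW)
  · exact mem_mul_top (hC.Γ_mem hB ha hb).2 (hC.Γ_mem1 dW cW)

include hχ

/-- the curvature functional on the cut-off functions -/
theorem cut_rk1 (ha : a ∈ C.Test) (hb : b ∈ C.Test) (hc : c ∈ C.Test) (hd : d ∈ C.Test) :
    Tendsto (fun n => I (C.rkI UU κ' a b c d (χ n))) atTop (𝓝 (I (C.rk1 UU κ' a b c d))) := by
  have aW := hC.tW ha
  have bW := hC.tW hb
  have hh1 := hC.hess_mem2 hB hc hb hd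
  have hh2 := hC.hess_mem2 hB hc ha hd
  have hGm := rk1_mem (κ' := κ') hC hB hUU ha hb hc hd
  have e : ∀ n, C.rkI UU κ' a b c d (χ n) = χ n * C.rk1 UU κ' a b c d
      - C.Γ (χ n) a * (C.hess c b d) + C.Γ (χ n) b * (C.hess c a d) := by
    intro n
    unfold Calc.rk1 Calc.rkI Calc.rrI Calc.De
    algebra
  have t1 := cut_mul hχ hGm
  have t2 := cut_grad hχ hC ha hh1
  have t3 := cut_grad hχ hC hb hh2
  have t := (t1.sub t2).add t3
  rw [sub_zero, add_zero] at t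
  refine t.congr fun n => ?_
  have cA := hC.test_A (hχ.mem n)
  have k1 : MemLp (χ n * C.rk1 UU κ' a b c d : M →ₘ[m] ℝ) 1 m := mem_mul_top cA.2 hGm
  have k2 : MemLp (C.Γ (χ n) a * (C.hess c b d) : M →ₘ[m] ℝ) 1 m :=
    mem_mul_22 (hC.Γ_mem2 cA.1 (hC.test_Γ_top (hχ.mem n)) aW) hh1
  have k3 : MemLp (C.Γ (χ n) b * (C.hess c a d) : M →ₘ[m] ℝ) 1 m :=
    mem_mul_22 (hC.Γ_mem2 cA.1 (hC.test_Γ_top (hχ.mem n)) bW) hh2
  rw [e n, I_add (mem_sub k1 k2) k3, I_sub k1 k2]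

end const

variable {M : Type u} [MetricSpace M] [MeasurableSpace M] [BorelSpace M]
  [SecondCountableTopology M] {m : Measure M}
variable {E : Type*} [NormedAddCommGroup E] [InnerProductSpace ℝ E] {Gr : (M →ₘ[m] ℝ) → M → E}
variable {U : (M →ₘ[m] ℝ) → (M →ₘ[m] ℝ) → M → E}

/-- **Block G1, weights constant + test.** -/
theorem curv_pos_const [CompleteSpace E] {κ K N : ℝ} (h : Base m K N)
    (hD : T.DistSecGE (T.sob m) κ) (hG : IsGrad (sob m) Gr) (hU : IsHU (sob m) Gr U)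
    {a b F : M →ₘ[m] ℝ} (ha : a ∈ (sob m).Test) (hb : b ∈ (sob m).Test) (hF : F ∈ (sob m).Test)
    {c : ℝ} (h0 : 0 ≤ c • (1 : M →ₘ[m] ℝ) + F) :
    0 ≤ I ((sob m).rkI (UUof m U) κ a b b a F)
      + c * I ((sob m).rk1 (UUof m U) κ a b b a) := by
  have hsf := h.sf
  have hC := h.hC
  have hB := h.hB
  obtain ⟨χ, hχ⟩ := h.exists_isCut
  have hχ2 := hχ.sq hC hB
  have hUU := hU.isUU hC hB hG
  have hpos := curv_pos h hD hG hU
  have t := (cut_rk (κ' := κ) hχ2 hC hB hUU ha hb hb ha hF).add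
    ((cut_rk1 (κ' := κ) hχ2 hC hB hUU ha hb hb ha).const_mul c)
  refine ge_of_tendsto t (Eventually.of_forall fun n => ?_)
  have m1 : χ n * χ n ∈ (sob m).Test := hχ2.mem n
  have m2 : χ n * χ n * F ∈ (sob m).Test := hC.test_mul hB m1 hF
  have h1 := hpos a ha b hb (χ n * χ n * F + c • (χ n * χ n))
    (hC.test_add hB m2 (hC.test_smul hB c m1)) (by
      rw [nonneg_iff_ae] at h0 ⊢
      filter_upwards [h0, add_ae (c • (1 : M →ₘ[m] ℝ)) F, smul_ae (1 : M →ₘ[m] ℝ) c,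
        one_ae (M := M) (m := m), add_ae (χ n * χ n * F) (c • (χ n * χ n)),
        smul_ae (χ n * χ n) c, mul_ae (χ n * χ n) F, mul_ae (χ n) (χ n)]
        with x a0 a1 a2 a3 a4 a5 a6 a7
      rw [a4, a5, a6, a7]
      rw [a1, a2, a3] at a0
      nlinarith [mul_nonneg (mul_self_nonneg (χ n x)) a0])
  rw [hC.rkI_linφ c ha hb (hC.tW m2) (hC.tW m1)] at h1
  rwa [I_add (hC.rkI_mem hB hUU ha hb hb ha (hC.test_A m2))
    (mem_smul _ (hC.rkI_mem hB hUU ha hb hb ha (hC.test_A m1))), I_smul] at h1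

end Vale.Agent.P233.H326
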