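import Vale.Agent.P233.CD.Final
import Vale.Agent.P233.H715.CDDef
import Vale.Agent.P233.H719.CDLip

/-! P233, stage 3a: literal statements of the blocks used in the assembly of `CD.Blk_3a`
(helper326). -/

set_option linter.all false

open MeasureTheory Filter Topology Set Metric
open scoped ENNReal NNReal MeasureTheory

universe u

namespace Vale.Agent.P233.CDc

open Vale.Agent.P233.RG Vale.Agent.P233.H719.CD3

/-- OT (helper545): optimal plan, closed contact set, potentials, interpolation -/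
def Blk_OT : Prop :=
  ∀ (M : Type u) [MetricSpace M] [ProperSpace M] [MeasurableSpace M] [BorelSpace M],
    (∀ x y : M, ∀ s t : ℝ, 0 ≤ s → 0 ≤ t → s + t = dist x y → ∃ w, dist x w = s ∧ dist w y = t) →
    ∀ μ₀ μ₁ : Measure M, IsProbabilityMeasure μ₀ → IsProbabilityMeasure μ₁ →
    (∀ o : M, ∫⁻ x, ENNReal.ofReal (dist o x ^ 2) ∂μ₀ < ∞) →
    (∀ o : M, ∫⁻ x, ENNReal.ofReal (dist o x ^ 2) ∂μ₁ < ∞) →
    ∃ (q : Measure (M × M)) (G : Set (M × M)) (φ ψ : M → ℝ) (Z : ℝ → M × M → M),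
      P242.IsOptimalCoupling μ₀ μ₁ q ∧ IsClosed G ∧ q Gᶜ = 0 ∧
      (∀ p ∈ G, ∀ p' ∈ G, φ p.1 + ψ p'.2 ≤ dist p.1 p'.2 ^ 2 / 2) ∧
      (∀ p ∈ G, φ p.1 + ψ p.2 = dist p.1 p.2 ^ 2 / 2) ∧
      (∀ t, Measurable (Z t)) ∧ (∀ p, Z 0 p = p.1) ∧ (∀ p, Z 1 p = p.2) ∧
      (∀ p, ∀ s ∈ Icc (0 : ℝ) 1, ∀ t ∈ Icc (0 : ℝ) 1,
        dist (Z s p) (Z t p) = |s - t| * dist p.1 p.2) ∧
      P242.IsW2Geodesic (fun t => q.map (Z t))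

/-- J (helper761): Jacobian bounds. `ρ₀`, `ρ₁`, `ρs` are the densities of `μ₀`, `μ₁` and of the
interpolated measure with respect to `ℋⁿ`. -/
def Blk_J : Prop :=
  ∀ (M : Type u) [MetricSpace M] [ProperSpace M] [MeasurableSpace M] [BorelSpace M]
    (κ : ℝ) (n : ℕ) (s : ℝ) (G : Set (M × M)) (φ ψ : M → ℝ) (F : M → M × M)
    (μ₀ μ₁ : Measure M) (q : Measure (M × M)) (Z : M × M → M),
    2 ≤ n → 0 < s → s < 1 → GeoN (μH[n] : Measure M) n → IsClosed G → Mono2 G →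
    (∀ p ∈ G, ∀ p' ∈ G, φ p.1 + ψ p'.2 ≤ dist p.1 p'.2 ^ 2 / 2) →
    (∀ p ∈ G, φ p.1 + ψ p.2 = dist p.1 p.2 ^ 2 / 2) →
    Inv s G F → P242.IsP2 (μH[n] : Measure M) μ₀ → P242.IsP2 (μH[n] : Measure M) μ₁ →
    P242.IsCoupling μ₀ μ₁ q → q Gᶜ = 0 → Measurable Z → (∀ p ∈ G, SP s p.1 p.2 (Z p)) →
    ∀ᵐ p ∂q,
      (0 < μ₀.rnDeriv μH[n] p.1 ∧ μ₀.rnDeriv μH[n] p.1 < ∞) ∧
      (0 < μ₁.rnDeriv μH[n] p.2 ∧ μ₁.rnDeriv μH[n] p.2 < ∞) ∧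
      (q.map Z).rnDeriv μH[n] (Z p) < ∞ ∧
      (∀ L : M → E n, Reg κ n (Z p) L → 0 < dist p.1 p.2 → √κ * dist p.1 p.2 < Real.pi →
        Pt κ n s (Z p) L (Sh s G) (fun w => (F w).1) (fun w => (F w).2)
          (fun w => φ (F w).1) (fun w => ψ (F w).2)
          ((q.map Z).rnDeriv μH[n] (Z p) / μ₀.rnDeriv μH[n] p.1).toReal
          ((q.map Z).rnDeriv μH[n] (Z p) / μ₁.rnDeriv μH[n] p.2).toReal) ∧
      (p.1 = p.2 → (q.map Z).rnDeriv μH[n] (Z p) ≤ μ₀.rnDeriv μH[n] p.1 ∧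
        (q.map Z).rnDeriv μH[n] (Z p) ≤ μ₁.rnDeriv μH[n] p.2)

/-- E1 (helper719): the real inequality in terms of `tauCoeff` -/
def Blk_E1 : Prop :=
  ∀ (κ : ℝ) (n : ℕ) (s θ : ℝ) (r₀ r₁ rs : ℝ≥0∞), 2 ≤ n → 0 < s → s < 1 → 0 < θ →
    √κ * θ < Real.pi → 0 < r₀ → r₀ < ∞ → 0 < r₁ → r₁ < ∞ → rs < ∞ →
    (tn κ n (1 - s) θ * (rs / r₀).toReal) ^ ((1 : ℝ) / n)
      + (tn κ n s θ * (rs / r₁).toReal) ^ ((1 : ℝ) / n) ≤ 1 →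
    P242.tauCoeff ((n - 1) * κ) n (1 - s) θ * r₀ ^ (-1 / (n : ℝ))
      + P242.tauCoeff ((n - 1) * κ) n s θ * r₁ ^ (-1 / (n : ℝ)) ≤ rs ^ (-1 / (n : ℝ))

/-- E2 (helper719): antipodal pairs are null -/
def Blk_E2 : Prop :=
  ∀ (M : Type u) [MetricSpace M] [CompleteSpace M] [SecondCountableTopology M]
    [MeasurableSpace M] [BorelSpace M] (n : ℕ) (κ : ℝ) (G : Set (M × M)) (q : Measure (M × M)),
    2 ≤ n → T.IsAlexN M n κ → Mono2 G → IsFiniteMeasure q → q Gᶜ = 0 →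
    q.map Prod.fst ≪ (μH[n] : Measure M) → q {p | Real.pi ≤ √κ * dist p.1 p.2} = 0

end Vale.Agent.P233.CDc
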