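import Vale.Agent.P233.H326.If3a
import Vale.Agent.P233.H545.OT4
import Vale.Agent.P233.H761.CDJ2
import Vale.Agent.P233.H719.CDE12

/-! P233, stage 3a: (3a) from `Blk_Reg` and `Blk_Point` (helper326). -/

set_option linter.all false

open MeasureTheory Filter Topology Set Metric
open scoped ENNReal NNReal MeasureTheory

universe u

namespace Vale.Agent.P233.CDc

theorem blk_OT : Blk_OT.{u} := by
  intro M _ _ _ _ hgeod μ₀ μ₁ hp0 hp1 h0 h1
  obtain ⟨q, z, φ, ψ, h⟩ := H545.OT.exists_plan hgeod h0 h1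
  exact ⟨q, q.support, φ, ψ, z, h.opt, h.closed, h.supp, h.pot_le, h.pot_eq, h.meas, h.zero, h.one,
    fun p s hs t ht => h.dist_z s hs t ht p, h.geod⟩

/-- (3a) from the two open pieces -/
theorem blk_3a_of2 (hR : Blk_Reg.{u}) (hP : Blk_Point.{u}) : CD.Blk_3a.{u} :=
  blk_3a_of hR hP blk_OT H761.CDJ.blk_J H719.CD3.blk_E1 H719.CD3.blk_E2

end Vale.Agent.P233.CDc
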