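import Vale.Agent.P233.Gig.IfB
import Vale.Agent.P233.H545.LimW

/-!
# P233, block B0c: the Hessian fields of `θ` and `L` are continuous curves in `L²(M;E)`
-/

set_option linter.all false

open MeasureTheory Filter Topology Set
open scoped ENNReal NNReal InnerProductSpace

universe u

namespace Vale.Agent.P233.H326

open Vale.Agent.P233

variable {M : Type u} [MeasurableSpace M] {m : Measure M} {C : Calc m}

/-- differentiability in `W` implies continuity in `W` -/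
theorem DerW.cont (hC : IsDir C) {J : Set ℝ} {f : ℝ → M →ₘ[m] ℝ} {f' : M →ₘ[m] ℝ} {t : ℝ}
    (ht : t ∈ J) (hf : ∀ s ∈ J, f s ∈ C.W) (hf' : f' ∈ C.W) (h : C.DerW J f f' t) :
    C.CtW J f t := by
  have h0 : C.nrm2 (f t - f t) = 0 := by rw [sub_self]; exact hC.nrm2_zero
  have key : ContinuousWithinAt (fun s => C.nrm2 (f s - f t)) (J \ {t}) t := by
    show Tendsto (fun s => C.nrm2 (f s - f t)) (𝓝[J \ {t}] t) (𝓝 (C.nrm2 (f t - f t)))
    rw [h0]
    have h1 : Tendsto (fun s => (s - t) ^ 2 * (2 * C.nrm2 ((s - t)⁻¹ • (f s - f t) - f')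
        + 2 * C.nrm2 f')) (𝓝[J \ {t}] t) (𝓝 0) := by
      have h2 : Tendsto (fun s : ℝ => (s - t) ^ 2) (𝓝[J \ {t}] t) (𝓝 0) := by
        have : Continuous fun s : ℝ => (s - t) ^ 2 := by fun_prop
        have h3 := (this.tendsto t).mono_left (nhdsWithin_le_nhds (s := J \ {t}))
        simpa using h3
      have h3 := (h.const_mul 2).add_const (2 * C.nrm2 f')
      simpa using h2.mul h3
    refine squeeze_zero' ?_ ?_ h1
    · filter_upwards [self_mem_nhdsWithin] with s hs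
      exact hC.nrm2_nonneg (hC.sub_mem (hf s hs.1) (hf t ht))
    · filter_upwards [self_mem_nhdsWithin] with s hs
      have hst : s - t ≠ 0 := sub_ne_zero.2 hs.2
      have hw := hC.sub_mem (hf s hs.1) (hf t ht)
      have hq := hC.sub_mem (hC.smul_mem (s - t)⁻¹ _ hw) hf'
      have e : f s - f t = (s - t) • (((s - t)⁻¹ • (f s - f t) - f') + f') := by
        rw [sub_add_cancel, smul_smul, mul_inv_cancel₀ hst, one_smul]
      conv_lhs => rw [e]
      rw [hC.nrm2_smul _ (hC.add_mem _ hq _ hf')]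
      exact mul_le_mul_of_nonneg_left (hC.nrm2_add_le hq hf') (sq_nonneg _)
  have h5 : Tendsto (fun s => C.nrm2 (f s - f t)) (𝓝[J] t) (𝓝 (C.nrm2 (f t - f t))) :=
    continuousWithinAt_diff_self.1 key
  rw [h0] at h5
  exact h5

/-- a curve of test functions, continuous in the graph norm -/
structure GC (C : Calc m) (J : Set ℝ) (w : ℝ → M →ₘ[m] ℝ) (t : ℝ) : Prop where
  mem : ∀ s ∈ J, w s ∈ C.TestI
  W : Tendsto (fun s => C.nrm2 (w s - w t)) (𝓝[J] t) (𝓝 0)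
  lap : Tendsto (fun s => I ((C.lap (w s) - C.lap (w t)) ^ 2)) (𝓝[J] t) (𝓝 0)
  bd : ∃ B : ℝ, ∀ s ∈ J, ∀ᵐ x ∂m, C.Γ (w s) (w s) x ≤ B

variable {K : ℝ}

theorem GC.smul (hC : IsGamma C) (hB : C.BEi K) {J : Set ℝ} {w : ℝ → M →ₘ[m] ℝ} {t : ℝ}
    (ht : t ∈ J) (h : GC C J w t) (c : ℝ) : GC C J (fun s => c • w s) t := by
  have hD := hC.toIsDir
  refine ⟨fun s hs => hC.testI_smul hB c (h.mem s hs), ?_, ?_, ?_⟩
  · have := h.W.const_mul (c ^ 2)
    rw [mul_zero] at this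
    refine this.congr' ?_
    filter_upwards [self_mem_nhdsWithin] with s hs
    rw [← smul_sub, hD.nrm2_smul c (hD.sub_mem (hC.tW (h.mem s hs).1) (hC.tW (h.mem t ht).1))]
  · have := h.lap.const_mul (c ^ 2)
    rw [mul_zero] at this
    refine this.congr' ?_
    filter_upwards [self_mem_nhdsWithin] with s hs
    rw [hC.lap_smul hB c (h.mem s hs).1, hC.lap_smul hB c (h.mem t ht).1, ← smul_sub, smul_pow,
      I_smul]
  · obtain ⟨B, hB'⟩ := h.bd
    refine ⟨c ^ 2 * B, fun s hs => ?_⟩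
    have hW := hC.tW (h.mem s hs).1
    have e : C.Γ (c • w s) (c • w s) = c ^ 2 • C.Γ (w s) (w s) := by
      rw [hC.smul_left c _ hW _ (hC.smul_mem c _ hW), hC.symm _ hW _ (hC.smul_mem c _ hW),
        hC.smul_left c _ hW _ hW, smul_smul, sq]
    filter_upwards [hB' s hs, eq_iff_ae.1 e, smul_ae (C.Γ (w s) (w s)) (c ^ 2)] with x a1 a2 a3
    rw [a2, a3]
    exact mul_le_mul_of_nonneg_left a1 (sq_nonneg _)

theorem GC.add (hC : IsGamma C) (hB : C.BEi K) {J : Set ℝ} {w v : ℝ → M →ₘ[m] ℝ} {t : ℝ}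
    (ht : t ∈ J) (h : GC C J w t) (h' : GC C J v t) : GC C J (fun s => w s + v s) t := by
  have hD := hC.toIsDir
  refine ⟨fun s hs => hC.testI_add hB (h.mem s hs) (h'.mem s hs), ?_, ?_, ?_⟩
  · have := (h.W.const_mul 2).add (h'.W.const_mul 2)
    rw [mul_zero, add_zero] at this
    refine squeeze_zero' ?_ ?_ this
    · filter_upwards [self_mem_nhdsWithin] with s hs
      exact hD.nrm2_nonneg (hD.sub_mem
        (hC.tW (hC.testI_add hB (h.mem s hs) (h'.mem s hs)).1)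
        (hC.tW (hC.testI_add hB (h.mem t ht) (h'.mem t ht)).1))
    · filter_upwards [self_mem_nhdsWithin] with s hs
      have e : w s + v s - (w t + v t) = (w s - w t) + (v s - v t) := by abel
      rw [e]
      exact hD.nrm2_add_le (hD.sub_mem (hC.tW (h.mem s hs).1) (hC.tW (h.mem t ht).1))
        (hD.sub_mem (hC.tW (h'.mem s hs).1) (hC.tW (h'.mem t ht).1))
  · have := (h.lap.const_mul 2).add (h'.lap.const_mul 2)
    rw [mul_zero, add_zero] at this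
    refine squeeze_zero' (Eventually.of_forall fun s => I_sq_nonneg _) ?_ this
    filter_upwards [self_mem_nhdsWithin] with s hs
    rw [hC.lap_add hB (h.mem s hs).1 (h'.mem s hs).1, hC.lap_add hB (h.mem t ht).1 (h'.mem t ht).1]
    have e : C.lap (w s) + C.lap (v s) - (C.lap (w t) + C.lap (v t))
        = (C.lap (w s) - C.lap (w t)) + (C.lap (v s) - C.lap (v t)) := by abel
    rw [e]
    exact I_sq_add_le (mem_sub (hC.lap2 (h.mem s hs).1) (hC.lap2 (h.mem t ht).1))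
      (mem_sub (hC.lap2 (h'.mem s hs).1) (hC.lap2 (h'.mem t ht).1))
  · obtain ⟨B, hB1⟩ := h.bd
    obtain ⟨B', hB2⟩ := h'.bd
    refine ⟨4 * max B B', fun s hs => ?_⟩
    have hw := hC.tW (h.mem s hs).1
    have hv := hC.tW (h'.mem s hs).1
    have hv' := hC.smul_mem (-1) _ hv
    have e : w s + v s = w s - (-1 : ℝ) • v s := by rw [neg_one_smul, sub_neg_eq_add]
    have e2 : C.Γ ((-1 : ℝ) • v s) ((-1 : ℝ) • v s) = C.Γ (v s) (v s) := by
      rw [hC.smul_left _ _ hv _ hv', hC.symm _ hv _ hv', hC.smul_left _ _ hv _ hv, smul_smul]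
      norm_num
    rw [e]
    refine hD.Γ_sub_bd hw hv' ?_ ?_
    · filter_upwards [hB1 s hs] with x hx using hx.trans (le_max_left _ _)
    · rw [e2]
      filter_upwards [hB2 s hs] with x hx using hx.trans (le_max_right _ _)

/-- the curve converges in the sense of `Cv` along subsequences -/
theorem GC.subseq (hC : IsGamma C) {J : Set ℝ} {w : ℝ → M →ₘ[m] ℝ} {t : ℝ}
    (ht : t ∈ J) (h : GC C J w t) {ns : ℕ → ℝ} (hns : Tendsto ns atTop (𝓝[J] t)) :
    ∃ ms : ℕ → ℕ, C.Cv (fun n => w (ns (ms n))) (w t) := by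
  have hD := hC.toIsDir
  obtain ⟨N0, hN0⟩ := eventually_atTop.1 (hns.eventually self_mem_nhdsWithin)
  have hns0 : Tendsto (fun n => ns (n + N0)) atTop (𝓝[J] t) :=
    hns.comp (tendsto_add_atTop_nat N0)
  have hW : C.WTo (𝓝[J] t) w (w t) := by
    refine ⟨?_, hC.tW (h.mem t ht).1, h.W⟩
    filter_upwards [self_mem_nhdsWithin] with s hs using hC.tW (h.mem s hs).1
  obtain ⟨N, ks, hks, h1, -, h3⟩ := hD.WTo_subseq hW hns0
  have hJ : ∀ n, ns (ks n + N + N0) ∈ J := fun n => hN0 _ (Nat.le_add_left _ _)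
  have htt : Tendsto (fun n => ns (ks n + N + N0)) atTop (𝓝[J] t) := hns0.comp
    ((tendsto_add_atTop_nat N).comp hks.tendsto_atTop)
  refine ⟨fun n => ks n + N + N0, fun n => (h.mem _ (hJ n)).1, (h.mem t ht).1,
    h.W.comp htt, h.lap.comp htt, ?_, h3⟩
  obtain ⟨B, hB1⟩ := h.bd
  exact ⟨4 * B, fun n => hD.Γ_sub_bd (hC.tW (h.mem _ (hJ n)).1) (hC.tW (h.mem t ht).1)
    (hB1 _ (hJ n)) (hB1 t ht)⟩

theorem cv_const (hC : IsGamma C) {h : M →ₘ[m] ℝ} (hh : h ∈ C.Test) : C.Cv (fun _ => h) h := by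
  have e : C.Γ (h - h) (h - h) = 0 := by
    rw [sub_self]
    have := hC.smul_left 0 0 hC.zero_mem 0 hC.zero_mem
    simpa using this
  refine ⟨fun _ => hh, hh, ?_, ?_, ⟨0, fun _ => ?_⟩, ?_⟩
  · rw [sub_self]
    simp only [hC.toIsDir.nrm2_zero]
    exact tendsto_const_nhds
  · rw [sub_self]
    have : (0 : M →ₘ[m] ℝ) ^ 2 = 0 := by ring
    simp only [this, I_zero]
    exact tendsto_const_nhds
  · rw [e]
    filter_upwards [zero_ae (M := M) (m := m)] with x hx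
    rw [hx]
  · rw [e]
    filter_upwards [zero_ae (M := M) (m := m)] with x hx
    rw [hx]
    exact tendsto_const_nhds

variable {E : Type*} [NormedAddCommGroup E] [InnerProductSpace ℝ E]

/-- from `∫ ‖·‖²` to `eLpNorm` -/
theorem TE_eLp {w : ℕ → M → E} {w0 : M → E} (h : TE m w w0) :
    Tendsto (fun n => eLpNorm (fun x => w n x - w0 x) 2 m) atTop (𝓝 0) := by
  have h1 : ∀ n, (eLpNorm (fun x => w n x - w0 x) 2 m).toReal ^ 2
      = ∫ x, ‖w n x - w0 x‖ ^ 2 ∂m := fun n => eLpNorm_sq_eq ((h.mem n).sub h.mem')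
  have h2 : Tendsto (fun n => (eLpNorm (fun x => w n x - w0 x) 2 m).toReal) atTop (𝓝 0) := by
    have h3 : Tendsto (fun n => (eLpNorm (fun x => w n x - w0 x) 2 m).toReal ^ 2) atTop (𝓝 0) :=
      h.lim.congr fun n => (h1 n).symm
    have h4 := h3.sqrt
    rw [Real.sqrt_zero] at h4
    refine h4.congr fun n => ?_
    rw [Real.sqrt_sq ENNReal.toReal_nonneg]
  have h5 := ENNReal.tendsto_ofReal h2
  rw [ENNReal.ofReal_zero] at h5
  refine h5.congr fun n => ?_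
  exact ENNReal.ofReal_toReal ((h.mem n).sub h.mem').2.ne

section fields

variable [SigmaFinite m] [CompleteSpace E] {Gr : (M →ₘ[m] ℝ) → M → E}
  {U : (M →ₘ[m] ℝ) → (M →ₘ[m] ℝ) → M → E}

theorem GC.U1 (hC : IsGamma C) (hB : C.BEi K) (hG : IsGrad C Gr) (hU : IsHU C Gr U) {J : Set ℝ}
    {w : ℝ → M →ₘ[m] ℝ} {t : ℝ} (ht : t ∈ J) (h : GC C J w t) {g : M →ₘ[m] ℝ} (hg : g ∈ C.Test) :
    Tendsto (fun s => eLpNorm (fun x => U (w s) g x - U (w t) g x) 2 m) (𝓝[J] t) (𝓝 0) := by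
  refine tendsto_of_subseq_tendsto fun ns hns => ?_
  obtain ⟨ms, hms⟩ := h.subseq hC ht hns
  exact ⟨ms, TE_eLp (hC.Cv_U hB hG hU hms (cv_const hC hg))⟩

theorem GC.U2 (hC : IsGamma C) (hB : C.BEi K) (hG : IsGrad C Gr) (hU : IsHU C Gr U) {J : Set ℝ}
    {w : ℝ → M →ₘ[m] ℝ} {t : ℝ} (ht : t ∈ J) (h : GC C J w t) {g : M →ₘ[m] ℝ} (hg : g ∈ C.Test) :
    Tendsto (fun s => eLpNorm (fun x => U g (w s) x - U g (w t) x) 2 m) (𝓝[J] t) (𝓝 0) := by
  refine tendsto_of_subseq_tendsto fun ns hns => ?_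
  obtain ⟨ms, hms⟩ := h.subseq hC ht hns
  exact ⟨ms, TE_eLp (hC.Cv_U hB hG hU (cv_const hC hg) hms)⟩

theorem GC.grad (hC : IsGamma C) (hG : IsGrad C Gr) {J : Set ℝ}
    {w : ℝ → M →ₘ[m] ℝ} {t : ℝ} (ht : t ∈ J) (h : GC C J w t) :
    Tendsto (fun s => eLpNorm (fun x => Gr (w s) x - Gr (w t) x) 2 m) (𝓝[J] t) (𝓝 0) := by
  have hD := hC.toIsDir
  refine tendsto_of_subseq_tendsto fun ns hns => ?_
  obtain ⟨ms, hms⟩ := h.subseq hC ht hns
  refine ⟨ms, TE_eLp ⟨fun n => hG.mem _ (hC.tW (hms.test n)), hG.mem _ (hC.tW hms.lim), ?_⟩⟩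
  refine (hD.tendsto_E_of_nrm2 (fun n => hC.tW (hms.test n)) (hC.tW hms.lim) hms.W).congr
    fun n => ?_
  rw [← hG.int_norm_sq (hD.sub_mem (hC.tW (hms.test n)) (hC.tW hms.lim))]
  refine integral_congr_ae ?_
  filter_upwards [hG.sub hD (hC.tW (hms.test n)) (hC.tW hms.lim)] with x hx
  rw [hx]

end fields

/-- the potentials of a regular pair -/
theorem Reg.gc [SigmaFinite m] (hC : IsGamma C) (hB : C.BEi K) {ε a b : ℝ} {φ u : ℝ → M →ₘ[m] ℝ}
    (h : C.Reg ε a b φ u) {t : ℝ} (ht : t ∈ Icc a b) :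
    GC C (Icc a b) φ t ∧ GC C (Icc a b) u t := by
  have hD := hC.toIsDir
  obtain ⟨B, hbd⟩ := h.bdd
  have φW := fun s (hs : s ∈ Icc a b) => hC.tW (h.φ_mem s hs).1
  have uW := fun s (hs : s ∈ Icc a b) => hC.tW (h.u_mem s hs).1
  have φ' : -((ε / 2) • C.lap (φ t)) - (2 : ℝ)⁻¹ • C.Γ (φ t) (φ t) ∈ C.W :=
    hD.sub_mem (by
      rw [← neg_smul]
      exact hC.smul_mem _ _ (hC.test_lap_mem (h.φ_mem t ht).1))
      (hC.smul_mem _ _ (hC.Γ_self_mem hB (h.φ_mem t ht).1))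
  have u' : (ε / 2) • C.lap (u t) - (2 : ℝ)⁻¹ • C.Γ (u t) (u t) ∈ C.W :=
    hD.sub_mem (hC.smul_mem _ _ (hC.test_lap_mem (h.u_mem t ht).1))
      (hC.smul_mem _ _ (hC.Γ_self_mem hB (h.u_mem t ht).1))
  refine ⟨⟨h.φ_mem, DerW.cont hD ht φW φ' (h.dφ t ht), ?_, ⟨B, fun s hs => ?_⟩⟩,
    ⟨h.u_mem, DerW.cont hD ht uW u' (h.du t ht), ?_, ⟨B, fun s hs => ?_⟩⟩⟩
  · refine squeeze_zero' (Eventually.of_forall fun s => I_sq_nonneg _) ?_ (h.cφ t ht)
    filter_upwards [self_mem_nhdsWithin] with s hs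
    exact hD.I_sq_le_nrm2 (hD.sub_mem (hC.test_lap_mem (h.φ_mem s hs).1)
      (hC.test_lap_mem (h.φ_mem t ht).1))
  · filter_upwards [hbd s hs] with x hx using hx.2.2.1
  · refine squeeze_zero' (Eventually.of_forall fun s => I_sq_nonneg _) ?_ (h.cu t ht)
    filter_upwards [self_mem_nhdsWithin] with s hs
    exact hD.I_sq_le_nrm2 (hD.sub_mem (hC.test_lap_mem (h.u_mem s hs).1)
      (hC.test_lap_mem (h.u_mem t ht).1))
  · filter_upwards [hbd s hs] with x hx using hx.2.2.2.1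

theorem Reg.gc_th [SigmaFinite m] (hC : IsGamma C) (hB : C.BEi K) {ε a b : ℝ}
    {φ u : ℝ → M →ₘ[m] ℝ} (h : C.Reg ε a b φ u) {t : ℝ} (ht : t ∈ Icc a b) :
    GC C (Icc a b) (th φ u) t := by
  obtain ⟨h1, h2⟩ := Reg.gc hC hB h ht
  exact (h1.add hC hB ht h2).smul hC hB ht (2 : ℝ)⁻¹

theorem Reg.gc_LL [SigmaFinite m] (hC : IsGamma C) (hB : C.BEi K) {ε a b : ℝ}
    {φ u : ℝ → M →ₘ[m] ℝ} (h : C.Reg ε a b φ u) {t : ℝ} (ht : t ∈ Icc a b) :
    GC C (Icc a b) (LL ε φ u) t := by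
  obtain ⟨h1, h2⟩ := Reg.gc hC hB h ht
  have h3 := (h1.add hC hB ht (h2.smul hC hB ht (-1))).smul hC hB ht ε⁻¹
  have e : LL ε φ u = fun s => ε⁻¹ • (φ s + (-1 : ℝ) • u s) := by
    funext s
    unfold LL
    rw [neg_one_smul, sub_eq_add_neg]
  rwa [e]

/-- **Block B0c.** -/
theorem blk_B0c : Blk_B0c := by
  intro M _ m _ C K E _ _ _ Gr U hC hB hG hU ε a b φ u h g hg t ht
  have h1 := Reg.gc_th hC hB h ht
  have h2 := Reg.gc_LL hC hB h ht
  exact ⟨h1.U1 hC hB hG hU ht hg.1, h1.U2 hC hB hG hU ht hg.1, h2.U1 hC hB hG hU ht hg.1,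
    h1.grad hC hG ht⟩

end Vale.Agent.P233.H326
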