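import Vale.Agent.P233.Gig.IfB

/-!
# P233, block B6d: the distribution `dd_h` is bounded below
-/

open MeasureTheory Filter Topology Set
open scoped ENNReal NNReal InnerProductSpace

universe u

namespace Vale.Agent.P233.H326

open Vale.Agent.P233

variable {M : Type u} [MeasurableSpace M] {m : Measure M} {C : Calc m}

/-- `I (Γ(χ_k,w) G) → 0` for cut-offs `χ_k`, `w ∈ W`, `G ∈ L²` -/
theorem cutW (hC : IsGamma C) {χ : ℕ → M →ₘ[m] ℝ} {Λ : ℝ} (hχ : ∀ k, χ k ∈ C.W)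
    (hΓ : ∀ k : ℕ, ∀ᵐ x ∂m, |C.Γ (χ k) (χ k) x| ≤ Λ * ((k : ℝ) + 1)⁻¹) {G w : M →ₘ[m] ℝ}
    (hG : MemLp G 2 m) (hw : w ∈ C.W) :
    Tendsto (fun k => I (C.Γ (χ k) w * G)) atTop (𝓝 0) := by
  have hD := hC.toIsDir
  have htop : ∀ k, MemLp (C.Γ (χ k) (χ k)) ∞ m := fun k => mem_top_iff.2 ⟨_, hΓ k⟩
  have hb : ∀ k : ℕ, I (C.Γ (χ k) w * G) ^ 2
      ≤ (Λ * ((k : ℝ) + 1)⁻¹ * I (C.Γ w w)) * I (G ^ 2) := by
    intro k
    have h2 : MemLp (C.Γ (χ k) w) 2 m := hC.Γ_mem2 (hχ k) (htop k) hw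
    refine (I_cs h2 hG).trans ?_
    refine mul_le_mul_of_nonneg_right ?_ (I_sq_nonneg _)
    rw [← I_smul]
    refine I_mono (mem_sq h2) (mem_smul _ (hC.mem1 w hw)) ?_
    rw [le_iff_ae]
    filter_upwards [sq_ae (C.Γ (χ k) w), smul_ae (C.Γ w w) (Λ * ((k : ℝ) + 1)⁻¹),
      hC.Γ_cs_ae (hχ k) hw, hΓ k, hD.Γ_nonneg_ae (hχ k), hD.Γ_nonneg_ae hw]
      with x a1 a2 a3 a4 a5 a6
    rw [a1, a2]
    rw [abs_of_nonneg a5] at a4
    exact a3.trans (mul_le_mul_of_nonneg_right a4 a6)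
  have h0 : Tendsto (fun k : ℕ => (Λ * ((k : ℝ) + 1)⁻¹ * I (C.Γ w w)) * I (G ^ 2)) atTop
      (𝓝 0) := by
    have h1 : Tendsto (fun k : ℕ => ((k : ℝ) + 1)⁻¹) atTop (𝓝 0) :=
      tendsto_inv_atTop_zero.comp (tendsto_atTop_add_const_right _ _
        tendsto_natCast_atTop_atTop)
    have h2 := ((h1.const_mul Λ).mul_const (I (C.Γ w w))).mul_const (I (G ^ 2))
    simpa using h2
  have h3 : Tendsto (fun k => I (C.Γ (χ k) w * G) ^ 2) atTop (𝓝 0) :=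
    squeeze_zero (fun k => sq_nonneg _) hb h0
  have h4 := h3.sqrt
  rw [Real.sqrt_zero] at h4
  simp only [Real.sqrt_sq_eq_abs] at h4
  exact (tendsto_zero_iff_abs_tendsto_zero _).2 h4

variable {K : ℝ}

/-- B6d for weights in `A` -/
theorem ddh_ge_A [SigmaFinite m] (hC : IsGamma C) (hB : C.BEi K) {h z : M →ₘ[m] ℝ}
    (hh : h ∈ C.TestI) (hz : z ∈ C.A) (h0 : 0 ≤ z) :
    I (z * (C.lap h ^ 2 + (2 : ℝ) • C.Γ h (C.lap h) + K • C.Γ h h)) ≤ C.ddh h z := by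
  have hD := hC.toIsDir
  have hT := hh.1
  have hW := hC.tW hT
  have hL : C.lap h ∈ C.A := ⟨hC.test_lap_mem hT, hh.2⟩
  have hΓ := hC.Γ_self_mem hB hT
  have hbo := hC.bochner_weak hB hT hz h0
  have hzL := hD.mul_mem_A hz hL
  have e1 : I (C.Γ h (z * C.lap h)) = -I (C.lap h * (z * C.lap h)) :=
    (hC.test_isLap hT).2.2 _ hzL.1
  have e2 : C.Γ h (z * C.lap h) = z * C.Γ h (C.lap h) + C.lap h * C.Γ h z :=
    hD.Γ_mul_right hz hL hW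
  have m1 : MemLp (C.Γ h (C.lap h)) 1 m := hD.Γ_mem1 hW hL.1
  have m2 : MemLp (C.Γ h z) 1 m := hD.Γ_mem1 hW hz.1
  have m3 : MemLp (C.Γ z (C.Γ h h)) 1 m := hD.Γ_mem1 hz.1 hΓ
  have m4 : MemLp (C.Γ h h) 1 m := hC.mem1 h hW
  have m5 : MemLp (z * C.Γ h (C.lap h) : M →ₘ[m] ℝ) 1 m := mem_mul_top hz.2 m1
  have m6 : MemLp (C.lap h * C.Γ h z : M →ₘ[m] ℝ) 1 m := mem_mul_top hL.2 m2
  have m7 : MemLp (z * C.Γ h h : M →ₘ[m] ℝ) 1 m := mem_mul_top hz.2 m4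
  have hL2 : MemLp (C.lap h) 2 m := hC.memLp _ hL.1
  have m8 : MemLp (C.lap h * (z * C.lap h) : M →ₘ[m] ℝ) 1 m :=
    mem_mul_22 hL2 (hC.memLp _ hzL.1)
  rw [e2, I_add m5 m6] at e1
  unfold Calc.ddh
  rw [hC.symm _ hz.1 _ hW, I_add m6 (mem_smul _ m3), I_smul]
  rw [hC.symm _ hΓ _ hz.1] at hbo
  have e3 : z * (C.Γ h (C.lap h) + K • C.Γ h h) = z * C.Γ h (C.lap h) + K • (z * C.Γ h h) := by
    algebra
  rw [e3, I_add m5 (mem_smul _ m7), I_smul] at hbo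
  have e4 : z * (C.lap h ^ 2 + (2 : ℝ) • C.Γ h (C.lap h) + K • C.Γ h h)
      = C.lap h * (z * C.lap h) + (2 : ℝ) • (z * C.Γ h (C.lap h)) + K • (z * C.Γ h h) := by
    algebra
  rw [e4, I_add (mem_add m8 (mem_smul _ m5)) (mem_smul _ m7), I_add m8 (mem_smul _ m5), I_smul,
    I_smul]
  linarith

theorem ddh_add (hC : IsGamma C) [SigmaFinite m] (hB : C.BEi K) {h z w : M →ₘ[m] ℝ}
    (hh : h ∈ C.TestI) (hz : z ∈ C.W) (hw : w ∈ C.W) (c : ℝ) :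
    C.ddh h (z + c • w) = C.ddh h z + c * C.ddh h w := by
  have hD := hC.toIsDir
  have hT := hh.1
  have hW := hC.tW hT
  have hΓ := hC.Γ_self_mem hB hT
  have hcw := hC.smul_mem c w hw
  have m6 : ∀ {z : M →ₘ[m] ℝ}, z ∈ C.W →
      MemLp (C.lap h * C.Γ z h + (2 : ℝ)⁻¹ • C.Γ z (C.Γ h h) : M →ₘ[m] ℝ) 1 m := fun hz =>
    mem_add (mem_mul_top hh.2 (hD.Γ_mem1 hz hW)) (mem_smul _ (hD.Γ_mem1 hz hΓ))
  unfold Calc.ddh
  rw [hC.add_left _ hz _ hcw _ hW, hC.add_left _ hz _ hcw _ hΓ, hC.smul_left c _ hw _ hW,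
    hC.smul_left c _ hw _ hΓ]
  have e : C.lap h * (C.Γ z h + c • C.Γ w h) + (2 : ℝ)⁻¹ • (C.Γ z (C.Γ h h) + c • C.Γ w (C.Γ h h))
      = (C.lap h * C.Γ z h + (2 : ℝ)⁻¹ • C.Γ z (C.Γ h h))
        + c • (C.lap h * C.Γ w h + (2 : ℝ)⁻¹ • C.Γ w (C.Γ h h)) := by
    algebra
  rw [e, I_add (m6 hz) (mem_smul _ (m6 hw)), I_smul]
  ring

/-- **Block B6d.** -/
theorem blk_B6d : Blk_B6d.{u} := by
  intro M _ m _ C K hC hB h hh c z hz hz0
  have hD := hC.toIsDir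
  have hT := hh.1
  have hW := hC.tW hT
  have hΓ := hC.Γ_self_mem hB hT
  have hL : C.lap h ∈ C.A := ⟨hC.test_lap_mem hT, hh.2⟩
  have hL2 : MemLp (C.lap h) 2 m := hC.memLp _ hL.1
  have m4 : MemLp (C.Γ h h) 1 m := hC.mem1 h hW
  obtain ⟨χ, Λ, h1, h2, h3, h4, h5, h6, h7⟩ := hC.exists_cut hB
  set z0 : M →ₘ[m] ℝ := z - c • (1 : M →ₘ[m] ℝ) with hz0d
  have hz1 : z = z0 + c • (1 : M →ₘ[m] ℝ) := by rw [hz0d]; abel
  set a1 : M →ₘ[m] ℝ := C.lap h ^ 2 + (2 : ℝ) • C.Γ h (C.lap h) + K • C.Γ h h with ha1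
  have ma1 : MemLp a1 1 m := mem_add (mem_add (mem_sq hL2)
    (mem_smul _ (hD.Γ_mem1 hW hL.1))) (mem_smul _ m4)
  have hzt : MemLp z ∞ m := by
    rw [hz1]
    refine mem_add hz.2 (mem_smul _ (mem_top_iff.2 ⟨1, ?_⟩))
    filter_upwards [one_ae (M := M) (m := m)] with x hx
    rw [hx]; simp
  have χA : ∀ k, χ k ∈ C.A := fun k => hC.test_A (h1 k)
  have zkA : ∀ k, χ k * z0 ∈ C.A := fun k => hD.mul_mem_A (χA k) hz
  have key : ∀ k, I (χ k * (z * a1)) ≤ C.ddh h (χ k * z0) + c * C.ddh h (χ k) := by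
    intro k
    have e1 : χ k * z = χ k * z0 + c • χ k := by
      rw [hz1]; algebra
    have h0 : 0 ≤ χ k * z := by
      rw [nonneg_iff_ae]
      filter_upwards [mul_ae (χ k) z, nonneg_iff_ae.1 hz0, nonneg_iff_ae.1 (h2 k)]
        with x b1 b2 b3
      rw [b1]
      positivity
    have := ddh_ge_A hC hB hh (z := χ k * z) (by
      rw [e1]; exact hD.A_add (zkA k) (hD.A_smul c (χA k))) h0
    rw [← mul_assoc]
    refine this.trans (le_of_eq ?_)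
    rw [e1, ddh_add hC hB hh (zkA k).1 (χA k).1]
  have hlim1 : ∀ᵐ x ∂m, Tendsto (fun k => χ k x) atTop (𝓝 ((1 : M →ₘ[m] ℝ) x)) := by
    filter_upwards [h4, one_ae (M := M) (m := m)] with x b1 b2
    rw [b2]; exact b1
  have t0 : Tendsto (fun k => I (χ k * (z * a1))) atTop (𝓝 (I (z * a1))) := by
    have := I_tendsto_of_bdd h3 hlim1 (mem_mul_top hzt ma1)
    rwa [one_mul] at this
  -- the limit of `ddh h (χ z0)`
  set g0 : M →ₘ[m] ℝ := C.lap h * C.Γ z0 h + (2 : ℝ)⁻¹ • C.Γ z0 (C.Γ h h) with hg0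
  have mg0 : MemLp g0 1 m := mem_add (mem_mul_top hh.2 (hD.Γ_mem1 hz.1 hW))
    (mem_smul _ (hD.Γ_mem1 hz.1 hΓ))
  have hz2 : MemLp z0 2 m := hC.memLp _ hz.1
  have t1 : Tendsto (fun k => C.ddh h (χ k * z0)) atTop (𝓝 (C.ddh h z0)) := by
    have e : ∀ k, C.ddh h (χ k * z0) = -I (χ k * g0) - I (C.Γ (χ k) h * (C.lap h * z0))
        - (2 : ℝ)⁻¹ * I (C.Γ (χ k) (C.Γ h h) * z0) := by
      intro k
      unfold Calc.ddh
      rw [hD.Γ_mul_left (χA k) hz hW, hD.Γ_mul_left (χA k) hz hΓ]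
      have m1 : MemLp (χ k * g0 : M →ₘ[m] ℝ) 1 m := mem_mul_top (χA k).2 mg0
      have m2 : MemLp (C.Γ (χ k) h * (C.lap h * z0) : M →ₘ[m] ℝ) 1 m := by
        rw [mul_comm]
        exact mem_mul_top (mem_mul_top hh.2 hz.2) (hD.Γ_mem1 (χA k).1 hW)
      have m3 : MemLp (C.Γ (χ k) (C.Γ h h) * z0 : M →ₘ[m] ℝ) 1 m := by
        rw [mul_comm]
        exact mem_mul_top hz.2 (hD.Γ_mem1 (χA k).1 hΓ)
      have e2 : C.lap h * (χ k * C.Γ z0 h + z0 * C.Γ (χ k) h)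
          + (2 : ℝ)⁻¹ • (χ k * C.Γ z0 (C.Γ h h) + z0 * C.Γ (χ k) (C.Γ h h))
          = χ k * g0 + C.Γ (χ k) h * (C.lap h * z0)
            + (2 : ℝ)⁻¹ • (C.Γ (χ k) (C.Γ h h) * z0) := by
        rw [hg0]; algebra
      rw [e2, I_add (mem_add m1 m2) (mem_smul _ m3), I_add m1 m2, I_smul]
      ring
    have s1 := I_tendsto_of_bdd h3 hlim1 mg0
    rw [one_mul] at s1
    have s2 := cutW hC (fun k => (χA k).1) h7 (mem_mul_top hh.2 hz2) hW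
    have s3 := cutW hC (fun k => (χA k).1) h7 hz2 hΓ
    have s := (s1.neg.sub s2).sub (s3.const_mul (2 : ℝ)⁻¹)
    simp only [sub_zero, mul_zero] at s
    refine (s.congr fun k => (e k).symm).trans (le_of_eq ?_)
    rfl
  have t2 : Tendsto (fun k => C.ddh h (χ k)) atTop (𝓝 0) := by
    have e : ∀ k, C.ddh h (χ k) = -I (C.Γ (χ k) h * C.lap h)
        + (2 : ℝ)⁻¹ * I (C.lap (χ k) * C.Γ h h) := by
      intro k
      unfold Calc.ddh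
      have e1 : I (C.Γ (χ k) (C.Γ h h)) = -I (C.lap (χ k) * C.Γ h h) :=
        (hC.test_isLap (h1 k)).2.2 _ hΓ
      rw [I_add (mem_mul_top hh.2 (hD.Γ_mem1 (χA k).1 hW)) (mem_smul _ (hD.Γ_mem1 (χA k).1 hΓ)),
        I_smul, e1, mul_comm (C.lap h)]
      ring
    have s1 := cutW hC (fun k => (χA k).1) h7 hL2 hW
    have s2 : Tendsto (fun k => I (C.lap (χ k) * C.Γ h h)) atTop (𝓝 0) := by
      have : ∀ᵐ x ∂m, Tendsto (fun k => C.lap (χ k) x) atTop (𝓝 ((0 : M →ₘ[m] ℝ) x)) := by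
        filter_upwards [h6, zero_ae (M := M) (m := m)] with x b1 b2
        rw [b2]; exact b1
      have := I_tendsto_of_bdd h5 this m4
      rwa [zero_mul, I_zero] at this
    have s := s1.neg.add (s2.const_mul (2 : ℝ)⁻¹)
    simp only [neg_zero, mul_zero, add_zero] at s
    exact s.congr fun k => (e k).symm
  have t := t1.add (t2.const_mul c)
  rw [mul_zero, add_zero] at t
  exact le_of_tendsto_of_tendsto' t0 t key

end Vale.Agent.P233.H326
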