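import Vale.Agent.P233.H326.PAsm
import Vale.Agent.P233.H715.CDPEf

/-! P233, stage 3a: `Blk_Point` (helper326: assembly; helper715: `PtG.pe`). -/

set_option linter.all false

open MeasureTheory Filter Topology Set Metric
open scoped ENNReal NNReal MeasureTheory RealInnerProductSpace

universe u

namespace Vale.Agent.P233.CDc

open Vale.Agent.P233.RG

theorem blk_PE : Blk_PE.{u} := by
  intro M _ _ _ _ _ κ n s z L S X Y u u' hn hA hReg h R hR ε hε
  have h1 := h.pe hA hReg R hR ε hε
  filter_upwards [h1] with r hr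
  obtain ⟨k1, k2⟩ := hr
  refine ⟨fun w hw hwr => ?_, fun w hw w' hw' hwr hwr' => ?_⟩
  · refine (k1 w hw hwr).trans (le_of_eq ?_)
    rw [real_inner_comm]
    rfl
  · refine le_trans (le_of_eq ?_) (k2 w hw w' hw' hwr hwr')
    have e1 : -(s⁻¹ • L (X w)) + -((1 - s)⁻¹ • L (Y w'))
        = -(s⁻¹ • L (X w) + (1 - s)⁻¹ • L (Y w')) := by
      rw [neg_add]
    rw [e1, inner_neg_left, norm_neg, neg_sq, real_inner_comm]
    unfold QQ dA dB cD1 cD2
    ring

theorem blk_Point : Blk_Point.{u} := blk_Point_of blk_PE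

end Vale.Agent.P233.CDc
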