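import Vale.Agent.P233.AB.StmtAB
import Vale.Agent.P233.H416.GPos4
import Mathlib.Analysis.SpecialFunctions.Trigonometric.Series

/-!
P233, stage 3a, block LIP (helper326): the end points of the geodesics of a monotone family depend
in a Lipschitz way on the point at time `s`.
-/

set_option linter.all false

open Real Set

namespace Vale.Agent.P233.CDc

namespace Lip

/-! ### real analysis -/

theorem termwise {a b P Q : ℝ} (ha : 0 ≤ a) (hb : 0 ≤ b) (hP : 0 ≤ P) (hQ : 0 ≤ Q)
    (h : 2 * (P + Q) ≤ a + b) {k : ℕ} (hk : k ≠ 0) : 2 * (P ^ k + Q ^ k) ≤ a ^ k + b ^ k := by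
  have h1 : P ^ k + Q ^ k ≤ (P + Q) ^ k := pow_add_pow_le hP hQ hk
  have h2 : (a + b) ^ k ≤ 2 ^ (k - 1) * (a ^ k + b ^ k) := add_pow_le ha hb k
  have h3 : (2 * (P + Q)) ^ k ≤ (a + b) ^ k := pow_le_pow_left₀ (by positivity) h k
  have h4 : (2 : ℝ) ^ k = 2 * 2 ^ (k - 1) := by
    obtain ⟨j, rfl⟩ := Nat.exists_eq_succ_of_ne_zero hk
    simp [pow_succ, mul_comm]
  rw [mul_pow, h4] at h3
  have h5 : (0 : ℝ) < 2 ^ (k - 1) := by positivity
  have h6 : 2 ^ (k - 1) * (2 * (P + Q) ^ k) ≤ 2 ^ (k - 1) * (a ^ k + b ^ k) := by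
    calc 2 ^ (k - 1) * (2 * (P + Q) ^ k) = 2 * 2 ^ (k - 1) * (P + Q) ^ k := by ring
      _ ≤ (a + b) ^ k := h3
      _ ≤ _ := h2
  have h7 := le_of_mul_le_mul_left h6 h5
  linarith

/-- if `l² + l'² ≤ a² + b²` then `4 cosh(l/2) cosh(l'/2) ≤ cosh a + cosh b + 2` -/
theorem cosh_ineq {a b l l' : ℝ} (h : l ^ 2 + l' ^ 2 ≤ a ^ 2 + b ^ 2) :
    4 * (cosh (l / 2) * cosh (l' / 2)) ≤ cosh a + cosh b + 2 := by
  have e : 4 * (cosh (l / 2) * cosh (l' / 2)) =
      2 * (cosh ((l + l') / 2) + cosh ((l - l') / 2)) := by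
    rw [show (l + l') / 2 = l / 2 + l' / 2 by ring, show (l - l') / 2 = l / 2 - l' / 2 by ring,
      cosh_add, cosh_sub]
    ring
  rw [e]
  have s1 := (hasSum_cosh ((l + l') / 2)).add (hasSum_cosh ((l - l') / 2))
  have s2 := (hasSum_cosh a).add (hasSum_cosh b)
  have s3 : HasSum (fun n : ℕ => if n = 0 then (2 : ℝ) else 0) 2 := by
    have := hasSum_ite_eq (0 : ℕ) (2 : ℝ)
    exact this
  refine hasSum_le (fun k => ?_) (s1.mul_left 2) (s2.add s3)
  rcases eq_or_ne k 0 with rfl | hk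
  · simp
    norm_num
  · simp only [if_neg hk, add_zero]
    rw [← add_div, ← add_div, ← mul_div_assoc]
    have h0 : (0 : ℝ) < ((2 * k).factorial : ℝ) := by positivity
    rw [div_le_div_iff_of_pos_right h0, pow_mul, pow_mul, pow_mul, pow_mul]
    refine termwise (sq_nonneg a) (sq_nonneg b) (sq_nonneg _) (sq_nonneg _) ?_ hk
    nlinarith

theorem cosh_sub_one (t : ℝ) : cosh t - 1 = 2 * sinh (t / 2) ^ 2 := by
  have h1 : cosh t = cosh (2 * (t / 2)) := by ring_nf
  rw [h1, cosh_two_mul, cosh_sq]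
  ring

theorem le_cosh {t : ℝ} (h0 : 0 ≤ t) : t ^ 2 / 2 ≤ cosh t - 1 := by
  rw [cosh_sub_one]
  have h1 : t / 2 ≤ sinh (t / 2) := self_le_sinh_iff.2 (by linarith)
  have h2 : (t / 2) ^ 2 ≤ sinh (t / 2) ^ 2 := pow_le_pow_left₀ (by linarith) h1 2
  nlinarith

theorem sinh_le_mul_cosh {u : ℝ} (hu : 0 ≤ u) : sinh u ≤ u * cosh u := by
  have hd : ∀ v : ℝ, HasDerivAt (fun v => v * cosh v - sinh v) (v * sinh v) v := fun v => by
    have := ((hasDerivAt_id v).mul (Real.hasDerivAt_cosh v)).sub (Real.hasDerivAt_sinh v)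
    refine this.congr_deriv ?_
    simp
  have hm : MonotoneOn (fun v => v * cosh v - sinh v) (Ici 0) := by
    refine monotoneOn_of_deriv_nonneg (convex_Ici 0)
      (fun v _ => (hd v).continuousAt.continuousWithinAt)
      (fun v _ => (hd v).differentiableAt.differentiableWithinAt) fun v hv => ?_
    rw [interior_Ici] at hv
    rw [(hd v).deriv]
    exact mul_nonneg (le_of_lt hv) (Real.sinh_nonneg_iff.2 (le_of_lt hv))
  have h1 := hm (mem_Ici.2 le_rfl) (mem_Ici.2 hu) hu
  simp at h1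
  linarith only [h1]

theorem cosh_sub_one_le {t T : ℝ} (h0 : 0 ≤ t) (h : t ≤ T) :
    cosh t - 1 ≤ t ^ 2 / 2 * cosh (T / 2) ^ 2 := by
  have h1 : sinh (t / 2) ≤ t / 2 * cosh (t / 2) := sinh_le_mul_cosh (by linarith)
  have h2 : 0 ≤ sinh (t / 2) := sinh_nonneg_iff.2 (by linarith)
  have h3 : cosh (t / 2) ≤ cosh (T / 2) := by
    rw [cosh_le_cosh, abs_of_nonneg (by linarith), abs_of_nonneg (by linarith)]
    linarith
  have h5 : sinh (t / 2) ≤ t / 2 * cosh (T / 2) :=
    h1.trans (mul_le_mul_of_nonneg_left h3 (by linarith))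
  have h6 : sinh (t / 2) ^ 2 ≤ (t / 2 * cosh (T / 2)) ^ 2 := pow_le_pow_left₀ h2 h5 2
  rw [cosh_sub_one]
  nlinarith

theorem jensen {a c d l v l' : ℝ} (ha : 0 ≤ a) (hc : 0 < c) (hd : 0 ≤ d) (h : a + c + d = 1) :
    (a * l + v + d * l') ^ 2 ≤ a * l ^ 2 + v ^ 2 / c + d * l' ^ 2 := by
  have e : a * l ^ 2 + v ^ 2 / c + d * l' ^ 2 - (a * l + v + d * l') ^ 2 =
      a * c * (l - v / c) ^ 2 + a * d * (l - l') ^ 2 + c * d * (v / c - l') ^ 2 := by
    have ha' : a = 1 - c - d := by linarith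
    subst ha'
    field_simp
    ring
  have h1 : 0 ≤ a * c * (l - v / c) ^ 2 + a * d * (l - l') ^ 2 + c * d * (v / c - l') ^ 2 := by
    positivity
  linarith

/-! ### metric part -/

variable {M : Type*} [MetricSpace M]

/-- two-point monotonicity is inherited by sub-intervals -/
theorem mono_sub {a b : ℝ} (ha : 0 ≤ a) (hab : a < b) (hb : b ≤ 1) {x p q y x' p' q' y' : M}
    (h1 : dist x p = a * dist x y) (h2 : dist p q = (b - a) * dist x y)
    (h3 : dist q y = (1 - b) * dist x y)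
    (h1' : dist x' p' = a * dist x' y') (h2' : dist p' q' = (b - a) * dist x' y')
    (h3' : dist q' y' = (1 - b) * dist x' y')
    (hm : dist x y ^ 2 + dist x' y' ^ 2 ≤ dist x y' ^ 2 + dist x' y ^ 2) :
    dist p q ^ 2 + dist p' q' ^ 2 ≤ dist p q' ^ 2 + dist p' q ^ 2 := by
  have hc : 0 < b - a := by linarith
  have hd : 0 ≤ 1 - b := by linarith
  have t1 : dist x y' ≤ a * dist x y + dist p q' + (1 - b) * dist x' y' := by
    rw [← h1, ← h3']
    have := dist_triangle x p y'
    have := dist_triangle p q' y'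
    linarith
  have t2 : dist x' y ≤ a * dist x' y' + dist p' q + (1 - b) * dist x y := by
    rw [← h1', ← h3]
    have := dist_triangle x' p' y
    have := dist_triangle p' q y
    linarith
  have j1 := jensen (l := dist x y) (v := dist p q') (l' := dist x' y') ha hc hd (by ring)
  have j2 := jensen (l := dist x' y') (v := dist p' q) (l' := dist x y) ha hc hd (by ring)
  have k1 := (pow_le_pow_left₀ dist_nonneg t1 2).trans j1
  have k2 := (pow_le_pow_left₀ dist_nonneg t2 2).trans j2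
  have k3 : (b - a) * (dist x y ^ 2 + dist x' y' ^ 2) ≤
      (dist p q' ^ 2 + dist p' q ^ 2) / (b - a) := by
    rw [add_div]
    nlinarith
  rw [le_div_iff₀ hc] at k3
  rw [h2, h2']
  nlinarith

/-- midpoint comparison, `κ = 0` -/
theorem mid_zero (hA : T.IsAlexandrov M 0) {p x y w : M} (h1 : dist x w = dist x y / 2)
    (h2 : dist w y = dist x y / 2) :
    (dist p x ^ 2 + dist p y ^ 2) / 2 - dist x y ^ 2 / 4 ≤ dist p w ^ 2 := by
  rcases eq_or_lt_of_le (dist_nonneg (x := x) (y := y)) with h0 | h0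
  · have hxy : x = y := dist_eq_zero.1 h0.symm
    have hxw : x = w := dist_eq_zero.1 (by rw [h1, ← h0]; simp)
    subst hxy
    subst hxw
    simp
  · have h3 := (hA.comparison p x y w (by rw [h1, h2]; ring)
      (by rw [Real.sqrt_zero, zero_mul]; positivity)).1 rfl
    rw [h1, h2] at h3
    have h4 : dist x y * ((dist p x ^ 2 + dist p y ^ 2) / 2 - dist x y ^ 2 / 4) ≤
        dist x y * dist p w ^ 2 := by nlinarith
    exact le_of_mul_le_mul_left h4 h0

/-- midpoint comparison, `κ < 0` -/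
theorem mid_neg {κ : ℝ} (hκ : κ < 0) (hA : T.IsAlexandrov M κ) {p x y w : M}
    (h1 : dist x w = dist x y / 2) (h2 : dist w y = dist x y / 2) :
    cosh (√(-κ) * dist p x) + cosh (√(-κ) * dist p y) ≤
      2 * (cosh (√(-κ) * dist x y / 2) * cosh (√(-κ) * dist p w)) := by
  rcases eq_or_lt_of_le (dist_nonneg (x := x) (y := y)) with h0 | h0
  · have hxy : x = y := dist_eq_zero.1 h0.symm
    have hxw : x = w := dist_eq_zero.1 (by rw [h1, ← h0]; simp)
    subst hxy
    subst hxw
    simp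
    linarith
  · have hk : 0 < √(-κ) := Real.sqrt_pos.2 (by linarith)
    have h3 := (hA.comparison p x y w (by rw [h1, h2]; ring)
      (by rw [Real.sqrt_eq_zero_of_nonpos hκ.le, zero_mul]; positivity)).2.2 hκ
    rw [h1, h2] at h3
    have e1 : √(-κ) * (dist x y / 2 + dist x y / 2) = 2 * (√(-κ) * (dist x y / 2)) := by ring
    rw [e1, sinh_two_mul] at h3
    have hs : 0 < sinh (√(-κ) * (dist x y / 2)) := sinh_pos_iff.2 (by positivity)
    have e2 : √(-κ) * dist x y / 2 = √(-κ) * (dist x y / 2) := by ring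
    rw [e2]
    refine le_of_mul_le_mul_left ?_ hs
    nlinarith

/-- a constant for the midpoint estimate -/
def MidC (M : Type*) [MetricSpace M] (R C : ℝ) : Prop :=
  1 ≤ C ∧ ∀ x y x' y' w w' : M, dist x y ≤ R → dist x' y' ≤ R →
    dist x y ^ 2 + dist x' y' ^ 2 ≤ dist x y' ^ 2 + dist x' y ^ 2 →
    dist x w = dist x y / 2 → dist w y = dist x y / 2 →
    dist x' w' = dist x' y' / 2 → dist w' y' = dist x' y' / 2 → dist x x' ≤ C * dist w w'

theorem midC_zero (hA : T.IsAlexandrov M 0) (R : ℝ) : MidC M R 2 := by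
  refine ⟨by norm_num, fun x y x' y' w w' _ _ hm h1 h2 h1' h2' => ?_⟩
  have a1 := mid_zero hA (p := w') h1 h2
  have a2 := mid_zero hA (p := x) h1' h2'
  have a3 := mid_zero hA (p := y) h1' h2'
  rw [dist_comm w' x, dist_comm w' y, dist_comm w' w] at a1
  rw [dist_comm y x'] at a3
  have h : dist x x' ^ 2 ≤ (2 * dist w w') ^ 2 := by
    have := sq_nonneg (dist y y')
    nlinarith
  exact (pow_le_pow_iff_left₀ dist_nonneg (by positivity) two_ne_zero).1 h

theorem midC_neg {κ : ℝ} (hκ : κ < 0) (hA : T.IsAlexandrov M κ) {R : ℝ} (hR : 0 ≤ R) :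
    ∃ C, MidC M R C := by
  set k := √(-κ) with hk
  have hk0 : 0 < k := Real.sqrt_pos.2 (by linarith)
  set C := max (R + 1) (2 * (cosh (k * R / 2) * cosh (k / 2))) with hC
  have c1 := one_le_cosh (k * R / 2)
  have c2 := one_le_cosh (k / 2)
  refine ⟨C, (by linarith : (1 : ℝ) ≤ R + 1).trans (le_max_left _ _),
    fun x y x' y' w w' hl hl' hm h1 h2 h1' h2' => ?_⟩
  rcases le_total 1 (dist w w') with hD | hD
  · have t1 := dist_triangle x w x'
    have t2 := dist_triangle w w' x'
    rw [dist_comm w' x'] at t2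
    have h3 : dist x x' ≤ R + dist w w' := by linarith
    have h4 : (R + 1) * dist w w' ≤ C * dist w w' :=
      mul_le_mul_of_nonneg_right (le_max_left _ _) dist_nonneg
    nlinarith
  · have a1 := mid_neg hκ hA (p := w') h1 h2
    have a2 := mid_neg hκ hA (p := x) h1' h2'
    have a3 := mid_neg hκ hA (p := y) h1' h2'
    rw [← hk] at a1 a2 a3
    rw [dist_comm w' x, dist_comm w' y, dist_comm w' w] at a1
    rw [dist_comm y x'] at a3
    have hsq : (k * dist x y) ^ 2 + (k * dist x' y') ^ 2 ≤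
        (k * dist x y') ^ 2 + (k * dist x' y) ^ 2 := by
      have := mul_le_mul_of_nonneg_left hm (sq_nonneg k)
      nlinarith
    have a4 := cosh_ineq hsq
    have p1 := cosh_pos (k * dist x y / 2)
    have p2 := cosh_pos (k * dist x' y' / 2)
    have a5 : cosh (k * dist x x') - 1 ≤
        4 * (cosh (k * dist x y / 2) * cosh (k * dist x' y' / 2)) * (cosh (k * dist w w') - 1) := by
      have b1 : 2 * cosh (k * dist x' y' / 2) *
          (cosh (k * dist x w') + cosh (k * dist y w')) ≤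
          2 * cosh (k * dist x' y' / 2) *
            (2 * (cosh (k * dist x y / 2) * cosh (k * dist w w'))) :=
        mul_le_mul_of_nonneg_left a1 (by positivity)
      have b2 := one_le_cosh (k * dist y y')
      nlinarith
    have q1 : cosh (k * dist x y / 2) ≤ cosh (k * R / 2) := by
      rw [cosh_le_cosh, abs_of_nonneg (by positivity), abs_of_nonneg (by positivity)]
      gcongr
    have q2 : cosh (k * dist x' y' / 2) ≤ cosh (k * R / 2) := by
      rw [cosh_le_cosh, abs_of_nonneg (by positivity), abs_of_nonneg (by positivity)]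
      gcongr
    have q3 : cosh (k * dist w w') - 1 ≤ (k * dist w w') ^ 2 / 2 * cosh (k / 2) ^ 2 :=
      cosh_sub_one_le (by positivity) (by nlinarith)
    have q0 : 0 ≤ cosh (k * dist w w') - 1 := by linarith [one_le_cosh (k * dist w w')]
    have q4 := le_cosh (t := k * dist x x') (by positivity)
    have q5 : (k * dist x x') ^ 2 / 2 ≤
        4 * (cosh (k * R / 2) * cosh (k * R / 2)) * ((k * dist w w') ^ 2 / 2 * cosh (k / 2) ^ 2) := by
      refine q4.trans (a5.trans ?_)
      gcongr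
    have q6 : dist x x' ^ 2 ≤ (2 * (cosh (k * R / 2) * cosh (k / 2)) * dist w w') ^ 2 := by
      have hk2 : 0 < k ^ 2 / 2 := by positivity
      refine le_of_mul_le_mul_left ?_ hk2
      have e1 : k ^ 2 / 2 * dist x x' ^ 2 = (k * dist x x') ^ 2 / 2 := by ring
      have e2 : k ^ 2 / 2 * (2 * (cosh (k * R / 2) * cosh (k / 2)) * dist w w') ^ 2 =
          4 * (cosh (k * R / 2) * cosh (k * R / 2)) *
            ((k * dist w w') ^ 2 / 2 * cosh (k / 2) ^ 2) := by ring
      rw [e1, e2]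
      exact q5
    have q7 := (pow_le_pow_iff_left₀ dist_nonneg (by positivity) two_ne_zero).1 q6
    exact q7.trans (mul_le_mul_of_nonneg_right (le_max_right _ _) dist_nonneg)

/-- from midpoints to all intermediate points -/
theorem of_midC {R C : ℝ} (hg : ∀ x y : M, ∀ s t : ℝ, 0 ≤ s → 0 ≤ t → s + t = dist x y →
    ∃ w, dist x w = s ∧ dist w y = t) (h : MidC M R C) : ∀ (n : ℕ) (s : ℝ), 0 < s → s < 1 →
    1 / 2 ≤ 2 ^ n * (1 - s) → ∀ x y x' y' w w' : M, dist x y ≤ R → dist x' y' ≤ R →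
    dist x y ^ 2 + dist x' y' ^ 2 ≤ dist x y' ^ 2 + dist x' y ^ 2 →
    dist x w = s * dist x y → dist w y = (1 - s) * dist x y →
    dist x' w' = s * dist x' y' → dist w' y' = (1 - s) * dist x' y' →
    dist x x' ≤ C ^ (n + 1) * dist w w' := by
  obtain ⟨hC, hmid⟩ := h
  have small : ∀ (n : ℕ) (s : ℝ), 0 < s → s ≤ 1 / 2 → ∀ x y x' y' w w' : M, dist x y ≤ R →
      dist x' y' ≤ R → dist x y ^ 2 + dist x' y' ^ 2 ≤ dist x y' ^ 2 + dist x' y ^ 2 →
      dist x w = s * dist x y → dist w y = (1 - s) * dist x y →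
      dist x' w' = s * dist x' y' → dist w' y' = (1 - s) * dist x' y' →
      dist x x' ≤ C ^ (n + 1) * dist w w' := by
    intro n s hs hs2 x y x' y' w w' hl hl' hm h1 h2 h1' h2'
    have n1 : 0 ≤ dist x y := dist_nonneg
    have n2 : 0 ≤ dist x' y' := dist_nonneg
    obtain ⟨v, hv1, hv2⟩ := hg w y (s * dist x y) ((1 - 2 * s) * dist x y) (by positivity)
      (mul_nonneg (by linarith) n1) (by rw [h2]; ring)
    obtain ⟨v', hv1', hv2'⟩ := hg w' y' (s * dist x' y') ((1 - 2 * s) * dist x' y') (by positivity)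
      (mul_nonneg (by linarith) n2) (by rw [h2']; ring)
    have e1 : dist x v = 2 * s * dist x y := by
      have t1 := dist_triangle x w v
      have t2 := dist_triangle x v y
      refine le_antisymm (by linarith) (by linarith)
    have e1' : dist x' v' = 2 * s * dist x' y' := by
      have t1 := dist_triangle x' w' v'
      have t2 := dist_triangle x' v' y'
      refine le_antisymm (by linarith) (by linarith)
    have hm2 := mono_sub (a := 0) (b := 2 * s) le_rfl (by linarith) (by linarith)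
      (x := x) (p := x) (q := v) (y := y) (x' := x') (p' := x') (q' := v') (y' := y')
      (by simp) (by rw [e1]; ring) hv2 (by simp) (by rw [e1']; ring) hv2' hm
    have h3 := hmid x v x' v' w w' (by rw [e1]; nlinarith) (by rw [e1']; nlinarith) hm2
      (by rw [h1, e1]; ring) (by rw [hv1, e1]; ring) (by rw [h1', e1']; ring)
      (by rw [hv1', e1']; ring)
    refine h3.trans (mul_le_mul_of_nonneg_right ?_ dist_nonneg)
    calc C = C ^ 1 := (pow_one C).symm
      _ ≤ C ^ (n + 1) := pow_le_pow_right₀ hC (by omega)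
  intro n
  induction n with
  | zero =>
    intro s hs hs1 hn
    exact small 0 s hs (by simp at hn; linarith)
  | succ n ih =>
    intro s hs hs1 hn x y x' y' w w' hl hl' hm h1 h2 h1' h2'
    rcases le_or_gt s (1 / 2) with hs2 | hs2
    · exact small (n + 1) s hs hs2 x y x' y' w w' hl hl' hm h1 h2 h1' h2'
    have n1 : 0 ≤ dist x y := dist_nonneg
    have n2 : 0 ≤ dist x' y' := dist_nonneg
    obtain ⟨v, hv1, hv2⟩ := hg x w ((2 * s - 1) * dist x y) ((1 - s) * dist x y)
      (mul_nonneg (by linarith) n1) (mul_nonneg (by linarith) n1) (by rw [h1]; ring)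
    obtain ⟨v', hv1', hv2'⟩ := hg x' w' ((2 * s - 1) * dist x' y') ((1 - s) * dist x' y')
      (mul_nonneg (by linarith) n2) (mul_nonneg (by linarith) n2) (by rw [h1']; ring)
    have e1 : dist v y = 2 * (1 - s) * dist x y := by
      have t1 := dist_triangle v w y
      have t2 := dist_triangle x v y
      refine le_antisymm (by linarith) (by linarith)
    have e1' : dist v' y' = 2 * (1 - s) * dist x' y' := by
      have t1 := dist_triangle v' w' y'
      have t2 := dist_triangle x' v' y'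
      refine le_antisymm (by linarith) (by linarith)
    have hm2 := mono_sub (a := 2 * s - 1) (b := 1) (by linarith) (by linarith) le_rfl
      (x := x) (p := v) (q := y) (y := y) (x' := x') (p' := v') (q' := y') (y' := y')
      hv1 (by rw [e1]; ring) (by simp) hv1' (by rw [e1']; ring) (by simp) hm
    have h3 := hmid v y v' y' w w' (by rw [e1]; nlinarith) (by rw [e1']; nlinarith) hm2
      (by rw [hv2, e1]; ring) (by rw [h2, e1]; ring) (by rw [hv2', e1']; ring)
      (by rw [h2', e1']; ring)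
    have h4 := ih (2 * s - 1) (by linarith) (by linarith)
      (by rw [pow_succ] at hn; nlinarith) x y x' y' v v' hl hl' hm hv1 (by rw [e1]; ring) hv1'
      (by rw [e1']; ring)
    have hCn : 0 ≤ C ^ (n + 1) := by positivity
    calc dist x x' ≤ C ^ (n + 1) * dist v v' := h4
      _ ≤ C ^ (n + 1) * (C * dist w w') := mul_le_mul_of_nonneg_left h3 hCn
      _ = C ^ (n + 1 + 1) * dist w w' := by ring

theorem exists_midC [CompleteSpace M] {κ : ℝ} (hA : T.IsAlexandrov M κ)
    (hd : 0 < κ → ∀ x y : M, √κ * dist x y ≤ π) {R : ℝ} (hR : 0 ≤ R) : ∃ C, MidC M R C := by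
  rcases lt_trichotomy κ 0 with hk | hk | hk
  · exact midC_neg hk hA hR
  · subst hk
    exact ⟨2, midC_zero hA R⟩
  · exact ⟨2, midC_zero (H416.isAlexandrov_le hA hk (hd hk) hk.le) R⟩

end Lip

/-- **Block LIP.** -/
theorem lip {M : Type*} [MetricSpace M] [CompleteSpace M] {κ : ℝ} (hA : T.IsAlexandrov M κ)
    (hd : 0 < κ → ∀ x y : M, √κ * dist x y ≤ π) {s : ℝ} (hs : s ∈ Ioo (0 : ℝ) 1) (R : ℝ) :
    ∃ C > 0, ∀ x y x' y' w w' : M, dist x y ≤ R → dist x' y' ≤ R →
      dist x y ^ 2 + dist x' y' ^ 2 ≤ dist x y' ^ 2 + dist x' y ^ 2 →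
      dist x w = s * dist x y → dist w y = (1 - s) * dist x y →
      dist x' w' = s * dist x' y' → dist w' y' = (1 - s) * dist x' y' →
      dist x x' ≤ C * dist w w' ∧ dist y y' ≤ C * dist w w' := by
  rcases lt_or_ge R 0 with hR | hR
  · exact ⟨1, one_pos, fun x y x' y' w w' h => absurd (dist_nonneg.trans h) (not_le.2 hR)⟩
  obtain ⟨C, hC⟩ := Lip.exists_midC hA hd hR
  have hex : ∀ t : ℝ, t < 1 → ∃ n : ℕ, 1 / 2 ≤ 2 ^ n * (1 - t) := by
    intro t ht
    obtain ⟨n, hn⟩ := pow_unbounded_of_one_lt (1 / (1 - t)) (one_lt_two : (1 : ℝ) < 2)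
    refine ⟨n, ?_⟩
    have h0 : 0 < 1 - t := by linarith
    rw [div_lt_iff₀ h0] at hn
    linarith
  obtain ⟨n, hn⟩ := hex s hs.2
  obtain ⟨m, hm⟩ := hex (1 - s) (by linarith [hs.1])
  have h1C := hC.1
  have hle : ∀ j : ℕ, j + 1 ≤ n + m + 1 → C ^ (j + 1) ≤ C ^ (n + m + 1) := fun j hj =>
    pow_le_pow_right₀ h1C hj
  refine ⟨C ^ (n + m + 1), by positivity, fun x y x' y' w w' hl hl' hmo h1 h2 h1' h2' => ⟨?_, ?_⟩⟩
  · exact (Lip.of_midC hA.geodesic hC n s hs.1 hs.2 hn x y x' y' w w' hl hl' hmo h1 h2 h1'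
      h2').trans (mul_le_mul_of_nonneg_right (hle n (by omega)) dist_nonneg)
  · have h3 := Lip.of_midC hA.geodesic hC m (1 - s) (by linarith [hs.2]) (by linarith [hs.1]) hm
      y x y' x' w w' (by rw [dist_comm]; exact hl) (by rw [dist_comm]; exact hl')
      (by rw [dist_comm y x, dist_comm y' x', dist_comm y x', dist_comm y' x]; linarith)
      (by rw [dist_comm y w, h2, dist_comm y x]) (by rw [dist_comm w x, h1, dist_comm y x]; ring)
      (by rw [dist_comm y' w', h2', dist_comm y' x'])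
      (by rw [dist_comm w' x', h1', dist_comm y' x']; ring)
    exact h3.trans (mul_le_mul_of_nonneg_right (hle m (by omega)) dist_nonneg)

end Vale.Agent.P233.CDc
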