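import Vale.Agent.P233.H326.GAll
import Vale.Agent.P233.H131.Z
import Vale.Agent.P233.H671.PartGL
import Vale.Agent.P233.H994.RK9
import Vale.Agent.P233.H994.RKDef
import Vale.Agent.P233.H368.RADone
import Vale.Agent.P233.H886.KD
import Vale.Agent.P233.H254.ST
import Vale.Agent.P233.H982.RHout
import Vale.Agent.P233.H982.RH2
import Vale.Agent.P233.H715.RG7
import Vale.Agent.P233.H790.LCE

/-!
P233, RCDA: assembly of the whole chain (helper326).
-/

open MeasureTheory

universe u

namespace Vale.Agent.P233.H326.Fin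

theorem partN : RA.PartN.{u} :=
  RA.partN_of' RA.blk_ST (H368.blk_K1S H982.blk_H2a H982.blk_H2b) RA.blk_KA2 RA.blk_KD2
    RA.blk_KA3 RA.blk_KD3

theorem finalThm_of (hb : RG.Blk_EC.{u}) : H131.Z.FinalThm.{u} :=
  H131.Z.final_of_parts (RG.partGL_of3 H715.RG.blk_StarE hb H790.LCE.blk_LCE) partN mainThm

end Vale.Agent.P233.H326.Fin
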