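import Vale.Agent.P233.H326.Fin
import Vale.Agent.P233.H227.L2e

/-!
P233: the final theorem (Q1 of Gigli, both directions, no hypothesis).
-/

open MeasureTheory

universe u

namespace Vale.Agent.P233.H326.Fin

theorem finalThm : H131.Z.FinalThm.{u} := finalThm_of H227.LCE.blk_EC

end Vale.Agent.P233.H326.Fin
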