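import Vale.Agent.P233.H326.Fin2
import Vale.Agent.P233.H326.Blk3a
import Vale.Agent.P233.H326.BlkPoint
import Vale.Agent.P233.H416.RegBlk
import Vale.Agent.P233.H671.Blk3b
import Vale.Agent.P233.N2.H994.RK8
import Vale.Agent.P233.N2.H994.RK9

/-! P233, stage 3: the final statement with `CD(K,N)` (helper326). -/

universe u

namespace Vale.Agent.P233.H326.Fin

/-- (3a): Alexandrov spaces of curvature `≥ κ` and dimension `n` satisfy `CD((n - 1) κ, n)` -/
theorem blk_3a : CD.Blk_3a.{u} :=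
  CDc.blk_3a_of2 H416.Reg.blk_Reg CDc.blk_Point

/-- (3b): the Eulerian form of `RCD(K,n)` from `CD(K,n)` -/
theorem blk_3b : CD.Blk_3b.{u} :=
  H671.blk_3b_of N2.RA.blk_KA2 N2.RA.blk_KA3

theorem finalCD : CD.FinalCD.{u} :=
  CD.final_of finalThm blk_3a blk_3b

end Vale.Agent.P233.H326.Fin
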