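import Vale.Agent.P233.H326.GEnd
import Vale.Agent.P233.H866.F2All
import Vale.Agent.P233.H305.TwoTimeIfC
import Vale.Agent.P233.U.BlkC2
import Vale.Agent.P233.H689.BlkC3
import Vale.Agent.P233.H134.BlkC4
import Vale.Agent.P233.H276.CContr
import Vale.Agent.P233.H183.BlkC6a
import Vale.Agent.P233.H719.BlkC5
import Vale.Agent.P233.H994.BlkC6b
import Vale.Agent.P233.H249.BlkC6all
import Vale.Agent.P233.H254.LSF
import Vale.Agent.P233.H254.BlkE
import Vale.Agent.P233.H933.PartF34

/-!
# P233: the assembly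

All parts, and the statement `MainThm` without hypotheses.
-/

universe u

namespace Vale.Agent.P233.H326

open Vale.Agent.P233 Vale.Agent.P233.Gig

/-- all blocks of part C -/
theorem cBlocks : PC.CBlocks.{u} where
  c1 := TT.blk_C1
  c2 := H638.blk_C2
  c3 := H689.blk_C3
  c4 := H134.blk_C4
  c4d := H276.blk_C4D
  c6a := H183.blk_C6a
  c5 := H719.blk_C5
  c6b := H994.blk_C6b
  c6 := H249.blk_C6
  c7 := JCE.blk_C7'

theorem partD1 : PartD1.{u} := PC.partD1_of cBlocks PF.intoC_all H790.blk_A5v

theorem partD4 : PartD4.{u} := PC.partD4_of cBlocks PF.intoC_all H790.blk_A5v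

theorem partE : PartE.{u} := PC.partE_of cBlocks PF.intoC_all H790.blk_A5v blk_E

theorem partF2 : PartF2.{u} := PF.partF2_all cBlocks

/-- `(B) ↔ (A) ∧ full support ∧ RCD` -/
theorem mainThm : MainThm.{u} := mainThm_of_parts partD1 partD4 partE partF2 partF34

end Vale.Agent.P233.H326
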