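import Vale.Agent.P233.H326.If3aDef
import Vale.Agent.P233.H326.CDLip
import Vale.Agent.P233.H368.TauCD
import Vale.Agent.P233.H671.PartGL

/-! P233, stage 3a: assembly of `CD.Blk_3a` from the blocks of `H326/If3aDef.lean` (helper326). -/

set_option linter.all false

open MeasureTheory Filter Topology Set Metric
open scoped ENNReal NNReal MeasureTheory

universe u

namespace Vale.Agent.P233.CDc

open Vale.Agent.P233.RG Vale.Agent.P233.H719.CD3

namespace If3a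

/-- geometry of an Alexandrov space -/
theorem geo_srect {M : Type u} [MetricSpace M] [CompleteSpace M] [SecondCountableTopology M]
    [MeasurableSpace M] [BorelSpace M] {n : ℕ} {κ : ℝ} (hAx : Alex M n κ) :
    Nonempty M ∧ GeoN (μH[n] : Measure M) n ∧ ∀ τ > 0, SRect (μH[n] : Measure M) n τ := by
  have hne : Nonempty M := by
    by_contra h
    rw [not_nonempty_iff] at h
    have h3 : (univ : Set M) = ∅ := univ_eq_empty_iff.2 h
    have hdim := hAx.dim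
    rw [h3, dimH_empty] at hdim
    have h4 : ((n : ℝ≥0∞)) = 0 := hdim.symm
    rw [Nat.cast_eq_zero] at h4
    have := hAx.two_le
    omega
  obtain ⟨hR, hRL, hA0⟩ := blk_G2 M n κ hAx
  have hch := Str.blk_chart M κ hAx.alex hne (by rw [hAx.dim]; exact ENNReal.natCast_lt_top n)
  have hD := Str.blk_dim M n κ hAx hR hch
  have hG := H675.G6.blk_G6 M n κ hAx hR hD
  have hLR := blk_G7 M n κ hAx hRL hD.chart
  exact ⟨hne, hG, blk_G9 M n κ hAx hG hLR⟩

theorem lipE {M : Type u} [MetricSpace M] [CompleteSpace M] [SecondCountableTopology M]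
    [MeasurableSpace M] [BorelSpace M] {n : ℕ} {κ : ℝ} (hAx : Alex M n κ) {s : ℝ}
    (hs : s ∈ Ioo (0 : ℝ) 1) : LipE M s := by
  intro R hR
  obtain ⟨C, hC, h⟩ := lip hAx.alex (fun hk x y => G2.diam_le hAx hk x y) hs R
  exact ⟨C, hC, fun x y x' y' w w' h1 h2 h3 h4 h5 =>
    h x y x' y' w w' h1 h2 h3 h4.1 h4.2 h5.1 h5.2⟩

theorem mono2_of {M : Type u} [MetricSpace M] {G : Set (M × M)} {φ ψ : M → ℝ}
    (hle : ∀ p ∈ G, ∀ p' ∈ G, φ p.1 + ψ p'.2 ≤ dist p.1 p'.2 ^ 2 / 2)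
    (heq : ∀ p ∈ G, φ p.1 + ψ p.2 = dist p.1 p.2 ^ 2 / 2) : Mono2 G := by
  intro p hp q hq
  have h1 := hle p hp q hq
  have h2 := hle q hq p hp
  have h3 := heq p hp
  have h4 := heq q hq
  linarith

/-- entropy as an integral with respect to the measure -/
theorem lint_le {X : Type*} [MeasurableSpace X] (m μ : Measure X) [SigmaFinite m] [SigmaFinite μ]
    (h : μ ≪ m) {N : ℝ} (hN : 0 < N) :
    ∫⁻ w, (μ.rnDeriv m w) ^ (-1 / N) ∂μ ≤ ∫⁻ w, (μ.rnDeriv m w) ^ (1 - 1 / N) ∂m := by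
  have hm : AEMeasurable (fun w => (μ.rnDeriv m w) ^ (-1 / N)) m :=
    ((Measure.measurable_rnDeriv μ m).pow_const _).aemeasurable
  rw [← lintegral_rnDeriv_mul h hm]
  refine lintegral_mono fun w => ?_
  show μ.rnDeriv m w * (μ.rnDeriv m w) ^ (-1 / N) ≤ (μ.rnDeriv m w) ^ (1 - 1 / N)
  generalize μ.rnDeriv m w = r
  rcases eq_or_ne r 0 with h0 | h0
  · rw [h0, zero_mul]; exact bot_le
  rcases eq_or_ne r ⊤ with h1 | h1
  · have : (-1 / N) < 0 := div_neg_of_neg_of_pos (by norm_num) hN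
    rw [h1, ENNReal.top_rpow_of_neg this, mul_zero]; exact bot_le
  · have e : (1 : ℝ) - 1 / N = 1 + (-1 / N) := by ring
    rw [e, ENNReal.rpow_add _ _ h0 h1, ENNReal.rpow_one]

/-- second moments of an interpolated measure -/
theorem moment {M : Type u} [MetricSpace M] [SecondCountableTopology M] [MeasurableSpace M]
    [BorelSpace M] {q : Measure (M × M)}
    {μ₀ μ₁ : Measure M} (hq : P242.IsCoupling μ₀ μ₁ q) {Z : M × M → M} (hZ : Measurable Z)
    (hd : ∀ p, dist p.1 (Z p) ≤ dist p.1 p.2) (o : M)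
    (h0 : ∫⁻ x, ENNReal.ofReal (dist o x ^ 2) ∂μ₀ < ∞)
    (h1 : ∫⁻ x, ENNReal.ofReal (dist o x ^ 2) ∂μ₁ < ∞) :
    ∫⁻ x, ENNReal.ofReal (dist o x ^ 2) ∂(q.map Z) < ∞ := by
  have hm : Measurable fun x : M => ENNReal.ofReal (dist o x ^ 2) :=
    ENNReal.measurable_ofReal.comp ((measurable_const.dist measurable_id).pow_const 2)
  rw [lintegral_map hm hZ]
  rw [← hq.1, lintegral_map hm measurable_fst] at h0
  rw [← hq.2, lintegral_map hm measurable_snd] at h1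
  have h2 : ∀ p : M × M, ENNReal.ofReal (dist o (Z p) ^ 2) ≤
      8 * ENNReal.ofReal (dist o p.1 ^ 2) + 2 * ENNReal.ofReal (dist o p.2 ^ 2) := by
    intro p
    have e8 : (8 : ℝ≥0∞) = ENNReal.ofReal 8 := by norm_num
    have e2 : (2 : ℝ≥0∞) = ENNReal.ofReal 2 := by norm_num
    rw [e8, e2, ← ENNReal.ofReal_mul (by norm_num), ← ENNReal.ofReal_mul (by norm_num),
      ← ENNReal.ofReal_add (by positivity) (by positivity)]
    refine ENNReal.ofReal_le_ofReal ?_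
    have h3 : dist o (Z p) ≤ 2 * dist o p.1 + dist o p.2 := by
      have h4 := dist_triangle o p.1 (Z p)
      have h5 := hd p
      have h6 := dist_triangle p.1 o p.2
      rw [dist_comm p.1 o] at h6
      linarith
    have h7 : dist o (Z p) ^ 2 ≤ (2 * dist o p.1 + dist o p.2) ^ 2 :=
      pow_le_pow_left₀ dist_nonneg h3 2
    nlinarith [sq_nonneg (2 * dist o p.1 - dist o p.2)]
  refine (lintegral_mono h2).trans_lt ?_
  rw [lintegral_add_left (by fun_prop), lintegral_const_mul _ (by fun_prop),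
    lintegral_const_mul _ (by fun_prop)]
  exact ENNReal.add_lt_top.2 ⟨ENNReal.mul_lt_top (by norm_num) h0,
    ENNReal.mul_lt_top (by norm_num) h1⟩

/-- `K θ² < (N - 1) π²` from the angle bound -/
theorem ang {κ θ : ℝ} {n : ℕ} (hn : 2 ≤ n) {N : ℝ} (hN : (n : ℝ) ≤ N) (hθ : 0 ≤ θ)
    (h : √κ * θ < Real.pi) : ((n : ℝ) - 1) * κ * θ ^ 2 < (N - 1) * Real.pi ^ 2 := by
  have hn' : (2 : ℝ) ≤ n := by exact_mod_cast hn
  have hp := Real.pi_pos
  rcases le_or_gt κ 0 with hk | hk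
  · have h1 : ((n : ℝ) - 1) * κ * θ ^ 2 ≤ 0 := by
      have : ((n : ℝ) - 1) * κ ≤ 0 := mul_nonpos_of_nonneg_of_nonpos (by linarith) hk
      exact mul_nonpos_of_nonpos_of_nonneg this (sq_nonneg _)
    have h2 : 0 < (N - 1) * Real.pi ^ 2 := mul_pos (by linarith) (by positivity)
    linarith
  · have h1 : (√κ * θ) ^ 2 < Real.pi ^ 2 := pow_lt_pow_left₀ h (by positivity) two_ne_zero
    rw [mul_pow, Real.sq_sqrt hk.le] at h1
    have h2 : ((n : ℝ) - 1) * (κ * θ ^ 2) < ((n : ℝ) - 1) * Real.pi ^ 2 :=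
      mul_lt_mul_of_pos_left h1 (by linarith)
    have h3 : ((n : ℝ) - 1) * Real.pi ^ 2 ≤ (N - 1) * Real.pi ^ 2 :=
      mul_le_mul_of_nonneg_right (by linarith) (by positivity)
    linarith

/-- `τ(0) = t` -/
theorem tau_theta_zero {K N t : ℝ} (hN : 1 < N) (ht : 0 < t) :
    P242.tauCoeff K N t 0 = ENNReal.ofReal t := by
  have h1 : ¬ ((N - 1) * Real.pi ^ 2 ≤ K * (0 : ℝ) ^ 2) := by
    rw [zero_pow two_ne_zero, mul_zero, not_le]
    exact mul_pos (by linarith) (by positivity)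
  have h2 : ¬ (0 < K * (0 : ℝ) ^ 2) := by simp
  have h3 : K * (0 : ℝ) ^ 2 = 0 := by simp
  unfold P242.tauCoeff P242.sigmaCoeff
  rw [if_neg h1, if_neg h2, if_pos h3]
  have h4 : ENNReal.ofReal t ≠ 0 := by simpa using ht
  rw [← ENNReal.rpow_add _ _ h4 ENNReal.ofReal_ne_top]
  have h5 : (1 : ℝ) / N + (N - 1) / N = 1 := by field_simp; ring
  rw [h5, ENNReal.rpow_one]

/-- the pointwise inequality for `θ = 0` -/
theorem ptw_zero {K N s : ℝ} {r₀ r₁ rs : ℝ≥0∞} (hN : 1 < N) (hs0 : 0 < s) (hs1 : s < 1)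
    (h0 : rs ≤ r₀) (h1 : rs ≤ r₁) :
    P242.tauCoeff K N (1 - s) 0 * r₀ ^ (-1 / N) + P242.tauCoeff K N s 0 * r₁ ^ (-1 / N)
      ≤ rs ^ (-1 / N) := by
  rw [tau_theta_zero hN (by linarith), tau_theta_zero hN hs0]
  have hpos : 0 ≤ 1 / N := by positivity
  have hle : ∀ r : ℝ≥0∞, rs ≤ r → r ^ (-1 / N) ≤ rs ^ (-1 / N) := by
    intro r hr
    rw [neg_div, ENNReal.rpow_neg, ENNReal.rpow_neg]
    exact ENNReal.inv_le_inv.2 (ENNReal.rpow_le_rpow hr hpos)
  have h2 : r₀ ^ (-1 / N) ≤ rs ^ (-1 / N) := hle _ h0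
  have h3 : r₁ ^ (-1 / N) ≤ rs ^ (-1 / N) := hle _ h1
  calc ENNReal.ofReal (1 - s) * r₀ ^ (-1 / N) + ENNReal.ofReal s * r₁ ^ (-1 / N)
      ≤ ENNReal.ofReal (1 - s) * rs ^ (-1 / N) + ENNReal.ofReal s * rs ^ (-1 / N) := by gcongr
    _ = rs ^ (-1 / N) := by
        rw [← add_mul, ← ENNReal.ofReal_add (by linarith) hs0.le]
        simp

end If3a

open If3a

/-- **(3a)** -/
theorem blk_3a_of (hR : Blk_Reg.{u}) (hP : Blk_Point.{u}) (hO : Blk_OT.{u}) (hJ : Blk_J.{u})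
    (hE1 : Blk_E1) (hE2 : Blk_E2.{u}) : CD.Blk_3a.{u} := by
  intro M _ _ _ _ _ n κ hn hA μ₀ μ₁ h0 h1
  have hAx : Alex M n κ := ⟨hn, hA.1, hA.2⟩
  obtain ⟨hne, hG, hSR⟩ := geo_srect hAx
  haveI : ProperSpace M := hG.geo.proper
  haveI : IsLocallyFiniteMeasure (μH[n] : Measure M) :=
    ⟨fun x => ⟨ball x 1, ball_mem_nhds x one_pos, hG.fin x 1⟩⟩
  haveI := h0.1
  haveI := h1.1
  have hn1 : (1 : ℝ) < n := by exact_mod_cast (lt_of_lt_of_le one_lt_two hn : 1 < n)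
  obtain ⟨q, G, φ, ψ, Z, hopt, hGc, hq, hle, heq, hZm, hZ0, hZ1, hZd, hW⟩ :=
    hO M hG.geo.geod μ₀ μ₁ h0.1 h1.1 h0.2.2 h1.2.2
  have hcp : P242.IsCoupling μ₀ μ₁ q := hopt.1
  haveI hqp : IsProbabilityMeasure q := by
    constructor
    have h3 : (q.map Prod.fst) univ = 1 := by rw [hcp.1]; exact measure_univ
    rwa [Measure.map_apply measurable_fst MeasurableSet.univ, preimage_univ] at h3
  have hM2 : Mono2 G := mono2_of hle heq
  have hqG : ∀ᵐ p ∂q, p ∈ G := by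
    rw [ae_iff]; exact hq
  have hg0 : q.map (Z 0) = μ₀ := by
    have : Z 0 = Prod.fst := funext hZ0
    rw [this]; exact hcp.1
  have hg1 : q.map (Z 1) = μ₁ := by
    have : Z 1 = Prod.snd := funext hZ1
    rw [this]; exact hcp.2
  have hSP : ∀ t ∈ Icc (0 : ℝ) 1, ∀ p, SP t p.1 p.2 (Z t p) := by
    intro t ht p
    constructor
    · have h3 := hZd p 0 ⟨le_rfl, zero_le_one⟩ t ht
      rw [hZ0, zero_sub, abs_neg, abs_of_nonneg ht.1] at h3
      exact h3
    · have h3 := hZd p t ht 1 ⟨zero_le_one, le_rfl⟩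
      rw [hZ1, abs_sub_comm, abs_of_nonneg (by linarith [ht.2])] at h3
      exact h3
  have hanti : ∀ᵐ p ∂q, √κ * dist p.1 p.2 < Real.pi := by
    have h3 := hE2 M n κ G q hn hA hM2 inferInstance hq (by rw [hcp.1]; exact h0.2.1)
    rw [ae_iff]
    simpa only [not_lt] using h3
  have hac : ∀ t ∈ Icc (0 : ℝ) 1, q.map (Z t) ≪ (μH[n] : Measure M) := by
    intro t ht
    rcases eq_or_ne t 0 with e | e
    · rw [e, hg0]; exact h0.2.1
    rcases eq_or_ne t 1 with e1 | e1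
    · rw [e1, hg1]; exact h1.2.1
    have ht0 : 0 < t := lt_of_le_of_ne ht.1 (Ne.symm e)
    have ht1 : t < 1 := lt_of_le_of_ne ht.2 e1
    obtain ⟨F, hF, -⟩ := exists_inv (lipE hAx ⟨ht0, ht1⟩) ht0 ht1 hM2
    exact hF.ac (Nat.cast_nonneg n) hqG (hZm t).aemeasurable
      (Eventually.of_forall (hSP t ht)) (Or.inl (by rw [hcp.1]; exact h0.2.1))
  have hpr : ∀ t, IsProbabilityMeasure (q.map (Z t)) := fun t =>
    Measure.isProbabilityMeasure_map (hZm t).aemeasurable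
  refine ⟨q, fun t => q.map (Z t), hopt, hg0, hg1, hW, ?_, ?_⟩
  · intro t ht
    refine ⟨hpr t, hac t ht, fun o => ?_⟩
    refine moment hcp (hZm t) (fun p => ?_) o (h0.2.2 o) (h1.2.2 o)
    rw [(hSP t ht p).1]
    exact mul_le_of_le_one_left dist_nonneg ht.2
  · intro t ht N' hN'
    have hN0 : (0 : ℝ) < N' := by linarith
    have hN1 : (1 : ℝ) < N' := by linarith
    haveI := hpr t
    show _ ≤ ∫⁻ x, ((q.map (Z t)).rnDeriv (μH[n] : Measure M) x) ^ (1 - 1 / N') ∂(μH[n] : Measure M)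
    refine le_trans ?_ (lint_le (μH[n] : Measure M) (q.map (Z t)) (hac t ht) hN0)
    rw [lintegral_map ((Measure.measurable_rnDeriv _ _).pow_const _) (hZm t)]
    refine lintegral_mono_ae ?_
    rcases eq_or_ne t 0 with e | e
    · subst e
      rw [hg0]
      filter_upwards [hanti] with p hp
      rw [hZ0, sub_zero, H368.Tau.tau_zero hN1,
        H368.Tau.tau_one hN1 dist_nonneg (ang hn hN' dist_nonneg hp), zero_mul, add_zero, one_mul]
    rcases eq_or_ne t 1 with e1 | e1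
    · subst e1
      rw [hg1]
      filter_upwards [hanti] with p hp
      rw [hZ1, sub_self, H368.Tau.tau_zero hN1,
        H368.Tau.tau_one hN1 dist_nonneg (ang hn hN' dist_nonneg hp), zero_mul, zero_add, one_mul]
    have ht0 : 0 < t := lt_of_le_of_ne ht.1 (Ne.symm e)
    have ht1 : t < 1 := lt_of_le_of_ne ht.2 e1
    obtain ⟨F, hF, -⟩ := exists_inv (lipE hAx ⟨ht0, ht1⟩) ht0 ht1 hM2
    have h3 := hJ M κ n t G φ ψ F μ₀ μ₁ q (Z t) hn ht0 ht1 hG hGc hM2 hle heq hF h0 h1 hcp hq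
      (hZm t) (fun p _ => hSP t ht p)
    have h4 : ∀ᵐ p ∂q, ∃ L : M → E n, Reg κ n (Z t p) L :=
      ae_of_ae_map (hZm t).aemeasurable ((hac t ht).ae_le (hR M n κ hAx hG hSR))
    filter_upwards [hanti, hqG, h3, h4] with p hp hpG h5 h6
    obtain ⟨h7, h8, h9, h10, h11⟩ := h5
    refine H368.Tau.ladderE hn1 hN' ht0 ht1 dist_nonneg ?_
    rcases eq_or_ne p.1 p.2 with e2 | e2
    · obtain ⟨h12, h13⟩ := h11 e2
      have h14 : dist p.1 p.2 = 0 := by rw [e2, dist_self]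
      rw [h14]
      exact ptw_zero hn1 ht0 ht1 h12 h13
    · have hθ : 0 < dist p.1 p.2 := dist_pos.2 e2
      obtain ⟨L, hL⟩ := h6
      have h12 := hP M κ n t (Z t p) L _ _ _ _ _ _ _ hA.1 (h10 L hL hθ hp)
      have h13 : F (Z t p) = p := hF.eq p hpG _ (hSP t ht p)
      simp only [h13] at h12
      exact hE1 κ n t (dist p.1 p.2) _ _ _ hn ht0 ht1 hθ hp h7.1 h7.2 h8.1 h8.2 h9 h12

end Vale.Agent.P233.CDc
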