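import Vale.Agent.P233.H715.CDPEd
import Vale.Agent.P233.H979.Blow
import Vale.Agent.P233.H416.RegVol5

/-! P233, stage 3a: `Blk_Point` from the two estimates `PE` at small scale, the volume estimates of
block V and `Blow.radial` (helper326). -/

set_option linter.all false

open MeasureTheory Filter Topology Set Metric
open scoped ENNReal NNReal MeasureTheory RealInnerProductSpace Pointwise

universe u

namespace Vale.Agent.P233.CDc

open Vale.Agent.P233.RG

/-- radial eigenvalue -/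
noncomputable def dA (s : ℝ) : ℝ := 1 / (s * (1 - s))

/-- tangential eigenvalue -/
noncomputable def dB (κ s θ : ℝ) : ℝ := θ * sn κ θ / (sn κ (s * θ) * sn κ ((1 - s) * θ))

/-- (I) and (II) at small scale (helper715) -/
def PE {M : Type u} [MetricSpace M] (κ : ℝ) (n : ℕ) (s : ℝ) (z : M) (L : M → E n) (S : Set M)
    (X Y : M → M) (u u' : M → ℝ) : Prop :=
  ∀ R > 0, ∀ ε > 0, ∀ᶠ r : ℝ in 𝓝[>] 0,
    (∀ w ∈ S, dist z w ≤ R * r → ka s z X u w + kb s z Y u' w ≤
      QQ (dA s) (dB κ s (dist (X z) (Y z))) (ee z L Y) (L w) / 2 + ε * r ^ 2) ∧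
    (∀ w ∈ S, ∀ w' ∈ S, dist z w ≤ R * r → dist z w' ≤ R * r →
      QQ (dA s)⁻¹ (dB κ s (dist (X z) (Y z)))⁻¹ (ee z L Y)
        (s⁻¹ • L (X w) + (1 - s)⁻¹ • L (Y w')) / 2 ≤ ka s z X u w + kb s z Y u' w' + ε * r ^ 2)

/-- PE for all data -/
def Blk_PE : Prop :=
  ∀ (M : Type u) [MetricSpace M] [CompleteSpace M] [SecondCountableTopology M]
    [MeasurableSpace M] [BorelSpace M] (κ : ℝ) (n : ℕ) (s : ℝ) (z : M) (L : M → E n) (S : Set M)
    (X Y : M → M) (u u' : M → ℝ), 1 ≤ n → T.IsAlexandrov M κ → Reg κ n z L →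
    PtG κ n s z L S X Y u u' → PE κ n s z L S X Y u u'

namespace PAsm

theorem absorb {x v : ℝ≥0∞} {W ε η : ℝ} (hW : 0 ≤ W) (hε : 0 ≤ ε) (hη : 0 ≤ η)
    (h1 : x ≤ ENNReal.ofReal (1 + ε) * v + ENNReal.ofReal η) (h2 : x ≤ ENNReal.ofReal W) :
    x ≤ v + ENNReal.ofReal (ε * W + η) := by
  rcases le_total v (ENNReal.ofReal W) with h | h
  · refine h1.trans ?_
    rw [ENNReal.ofReal_add (by norm_num) hε, ENNReal.ofReal_one, add_mul, one_mul,
      ENNReal.ofReal_add (by positivity) hη, ENNReal.ofReal_mul hε, ← add_assoc]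
    gcongr
  · exact (h2.trans h).trans le_self_add

theorem om {a b : ℝ} (ha : 0 ≤ a) (x : ℝ≥0∞) :
    ENNReal.ofReal a * (ENNReal.ofReal b * x) = ENNReal.ofReal (a * b) * x := by
  rw [← mul_assoc, ← ENNReal.ofReal_mul ha]

/-- volume of a rescaled set -/
theorem vol_smul {n : ℕ} {t : ℝ} (ht : 0 < t) (B : Set (E n)) :
    (volume : Measure (E n)) (t • B) = ENNReal.ofReal (t ^ n) * volume B := by
  rw [Measure.addHaar_smul, finrank_euclideanSpace_fin, abs_of_pos (by positivity)]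

section

variable {M : Type u} [MetricSpace M] [MeasurableSpace M] [BorelSpace M] {κ : ℝ} {n : ℕ} {z : M}
  {L : M → E n} {c : ℝ}

/-- the measure at scale `r` -/
noncomputable def mr (M : Type u) [MetricSpace M] [MeasurableSpace M] [BorelSpace M] (n : ℕ)
    (c r : ℝ) : Measure M := ENNReal.ofReal (1 / (c * r ^ n)) • (μH[n] : Measure M)

theorem mr_apply {c r : ℝ} (A : Set M) :
    mr M n c r A = ENNReal.ofReal (1 / (c * r ^ n)) * (μH[n] : Measure M) A := by
  rw [mr, Measure.smul_apply, smul_eq_mul]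

theorem scale_pos {R : ℝ} (hR : 0 < R) {p : ℝ → Prop} (h : ∀ᶠ r : ℝ in 𝓝[>] 0, p r) :
    ∀ᶠ r : ℝ in 𝓝[>] 0, p (R * r) := by
  have ht : Tendsto (fun r : ℝ => R * r) (𝓝[>] 0) (𝓝[>] 0) := by
    rw [tendsto_nhdsWithin_iff]
    constructor
    · have : Tendsto (fun r : ℝ => R * r) (𝓝 0) (𝓝 (R * 0)) := (continuous_const.mul
        continuous_id).tendsto 0
      rw [mul_zero] at this
      exact this.mono_left nhdsWithin_le_nhds
    · filter_upwards [self_mem_nhdsWithin] with r hr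
      exact mul_pos hR hr
  exact ht.eventually h

/-- (L2) -/
theorem l2 (hn : 1 ≤ n) (hc : 0 < c)
    (hv : ∀ B : Set (E n), (volume : Measure (E n)) B = ENNReal.ofReal (1 / c) * μH[n] B)
    (hL : Reg κ n z L) {S : Set M}
    (hd : ∀ η > 0, ∀ R > 0, ∀ᶠ r : ℝ in 𝓝[>] 0,
      (μH[n] : Measure M) (ball z (R * r) \ S) ≤ ENNReal.ofReal (η * r ^ n))
    {R del : ℝ} (hR : 0 < R) (hdel : 0 < del) : ∀ᶠ r : ℝ in 𝓝[>] 0,
      (volume : Measure (E n)) (closedBall (0 : E n) R) ≤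
        mr M n c r (S ∩ ball z (R * r)) + ENNReal.ofReal del := by
  set c1 := ((μH[n] : Measure (E n)) (ball (0 : E n) 1)).toReal with hc1
  have hfin : (μH[n] : Measure (E n)) (ball (0 : E n) 1) ≠ ⊤ := by
    intro h
    have h1 := hv (ball (0 : E n) 1)
    rw [h, ENNReal.mul_top (by simpa using hc)] at h1
    exact measure_ball_lt_top.ne h1
  have hc10 : 0 ≤ c1 := ENNReal.toReal_nonneg
  obtain ⟨η, hη, hη2⟩ : ∃ η > 0, η * (1 + R ^ n) / c = del :=
    ⟨del * c / (1 + R ^ n), by positivity, by field_simp⟩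
  have hdens := hL.dens
  have h1 : c1 - η < c1 := by linarith
  have h2 := scale_pos hR (hdens.eventually (lt_mem_nhds h1))
  filter_upwards [h2, hd η hη R hR, self_mem_nhdsWithin] with r k1 k2 k3
  have hr : (0 : ℝ) < r := k3
  rw [mr_apply]
  have k4 : ENNReal.ofReal ((c1 - η) * (R * r) ^ n) ≤ (μH[n] : Measure M) (ball z (R * r)) := by
    rw [lt_div_iff₀ (by positivity)] at k1
    exact (ENNReal.ofReal_le_ofReal k1.le).trans ENNReal.ofReal_toReal_le
  have k5 : (μH[n] : Measure M) (ball z (R * r)) ≤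
      (μH[n] : Measure M) (S ∩ ball z (R * r)) + ENNReal.ofReal (η * r ^ n) := by
    refine le_trans ?_ (add_le_add le_rfl k2)
    refine le_trans (measure_mono ?_) (measure_union_le _ _)
    intro w hw
    by_cases hwS : w ∈ S
    · exact Or.inl ⟨hwS, hw⟩
    · exact Or.inr ⟨hw, hwS⟩
  have k6 : (volume : Measure (E n)) (closedBall (0 : E n) R) =
      ENNReal.ofReal (R ^ n * c1 / c) := by
    rw [Measure.addHaar_closedBall _ _ hR.le, finrank_euclideanSpace_fin, hv (ball (0 : E n) 1),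
      ← ENNReal.ofReal_toReal hfin, ← hc1, ← ENNReal.ofReal_mul (by positivity),
      ← ENNReal.ofReal_mul (by positivity)]
    congr 1
    ring
  rw [k6]
  have hk : 0 < 1 / (c * r ^ n) := by positivity
  have k7 : ENNReal.ofReal (1 / (c * r ^ n)) * ENNReal.ofReal ((c1 - η) * (R * r) ^ n) ≤
      ENNReal.ofReal (1 / (c * r ^ n)) * (μH[n] : Measure M) (S ∩ ball z (R * r))
        + ENNReal.ofReal (1 / (c * r ^ n)) * ENNReal.ofReal (η * r ^ n) := by
    rw [← mul_add]
    gcongr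
    exact k4.trans k5
  rw [← ENNReal.ofReal_mul hk.le, ← ENNReal.ofReal_mul hk.le] at k7
  have e1 : 1 / (c * r ^ n) * ((c1 - η) * (R * r) ^ n) = R ^ n * c1 / c - η * R ^ n / c := by
    rw [mul_pow]; field_simp
  have e2 : 1 / (c * r ^ n) * (η * r ^ n) = η / c := by field_simp
  rw [e1, e2] at k7
  calc ENNReal.ofReal (R ^ n * c1 / c)
      = ENNReal.ofReal ((R ^ n * c1 / c - η * R ^ n / c) + η * R ^ n / c) := by
        congr 1; ring
    _ ≤ ENNReal.ofReal (R ^ n * c1 / c - η * R ^ n / c) + ENNReal.ofReal (η * R ^ n / c) :=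
        ENNReal.ofReal_add_le
    _ ≤ (ENNReal.ofReal (1 / (c * r ^ n)) * (μH[n] : Measure M) (S ∩ ball z (R * r))
        + ENNReal.ofReal (η / c)) + ENNReal.ofReal (η * R ^ n / c) := by gcongr
    _ = _ := by
        rw [add_assoc, ← ENNReal.ofReal_add (by positivity) (by positivity), ← hη2]
        congr 2
        ring

/-- a bound of the measure at scale `r` -/
theorem bound (hc : 0 < c)
    (hv : ∀ B : Set (E n), (volume : Measure (E n)) B = ENNReal.ofReal (1 / c) * μH[n] B)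
    (hL : Lg κ n z L) {R ε : ℝ} (hR : 0 < R) (hε : 0 < ε) : ∀ᶠ r : ℝ in 𝓝[>] 0,
      ∀ A ⊆ ball z (R * r), mr M n c r A ≤ ENNReal.ofReal (1 + ε) *
        (volume : Measure (E n)) ((fun w => r⁻¹ • L w) '' A) := by
  obtain ⟨ρ, hρ, hV⟩ := H416.Reg.vol_near_z hL hε
  have h3 : ∀ᶠ r in 𝓝[>] (0 : ℝ), R * r < ρ :=
    scale_pos hR ((gt_mem_nhds hρ).filter_mono nhdsWithin_le_nhds)
  filter_upwards [h3, self_mem_nhdsWithin] with r k1 k2 A hA
  have hr : (0 : ℝ) < r := k2
  rw [mr_apply]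
  have e1 : (fun w => r⁻¹ • L w) '' A = r⁻¹ • (L '' A) := by
    rw [← image_smul, image_image]
  rw [e1, vol_smul (inv_pos.2 hr), hv]
  refine (mul_le_mul_right (hV A (hA.trans (ball_subset_ball k1.le))) _).trans (le_of_eq ?_)
  rw [om (by positivity), om (by positivity), om (by positivity)]
  congr 2
  rw [inv_pow]
  field_simp

theorem img_sub (hL : Lg κ n z L) {R r : ℝ} (hr : 0 < r) {A : Set M} (hA : A ⊆ ball z (R * r)) :
    (fun w => r⁻¹ • L w) '' A ⊆ closedBall (0 : E n) R := by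
  rintro _ ⟨w, hw, rfl⟩
  rw [mem_closedBall, dist_zero_right, norm_smul, hL.norm, Real.norm_of_nonneg (by positivity),
    inv_mul_le_iff₀ hr]
  have := mem_ball'.1 (hA hw)
  linarith

/-- (Ja), (Jb) -/
theorem ja (hc : 0 < c)
    (hv : ∀ B : Set (E n), (volume : Measure (E n)) B = ENNReal.ofReal (1 / c) * μH[n] B)
    (hL : Lg κ n z L) {t J : ℝ} (ht : 0 < t) {f : M → M} (ha : 0 < dist z (f z))
    (hπ : √κ * dist z (f z) < Real.pi) (hsn : 0 < sn κ (dist z (f z))) (hJ : 0 ≤ J) {S : Set M}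
    (hlip : ∃ C : ℝ, ∀ w ∈ S, dist z w ≤ 1 → dist (f z) (f w) ≤ C * dist z w)
    (hj : ∀ η > 0, ∀ R > 0, ∀ᶠ r : ℝ in 𝓝[>] 0, ∀ A ⊆ S ∩ ball z (R * r), MeasurableSet A →
      ENNReal.ofReal J * μH[n] A ≤ μH[n] (f '' A) + ENNReal.ofReal (η * r ^ n))
    {R del W : ℝ} (hR : 0 < R) (hdel : 0 < del) (hW : 0 ≤ W) : ∀ᶠ r : ℝ in 𝓝[>] 0,
      ∀ A ⊆ S ∩ ball z (R * r), MeasurableSet A → mr M n c r A ≤ ENNReal.ofReal W →
      ENNReal.ofReal (J * (dist z (f z) / sn κ (dist z (f z))) ^ (n - 1) * (t ^ n)⁻¹) *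
        mr M n c r A ≤
        (volume : Measure (E n)) (closure ((fun w => r⁻¹ • (t⁻¹ • L (f w))) '' A))
          + ENNReal.ofReal del := by
  set a := dist z (f z) with had
  set k0 := (a / sn κ a) ^ (n - 1) * (t ^ n)⁻¹ with hk0
  have hk00 : 0 < k0 := by positivity
  -- constants
  obtain ⟨ε, hε, hε2⟩ : ∃ ε > 0, ε * (J * k0 * W) ≤ del / 2 := by
    refine ⟨del / 2 / (J * k0 * W + 1), by positivity, ?_⟩
    rw [div_mul_eq_mul_div, div_le_iff₀ (by positivity)]
    have : 0 ≤ J * k0 * W := by positivity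
    nlinarith
  obtain ⟨η, hη, hη2⟩ : ∃ η > 0, k0 * η / c = del / 2 :=
    ⟨del / 2 * c / k0, by positivity, by field_simp⟩
  obtain ⟨ρ, hρ, hV⟩ := H416.Reg.vol_far hL ha hπ hε
  obtain ⟨C, hC⟩ := hlip
  have h3 : ∀ᶠ r in 𝓝[>] (0 : ℝ), R * r < min 1 (ρ / (|C| + 1)) :=
    scale_pos hR ((gt_mem_nhds (by positivity)).filter_mono nhdsWithin_le_nhds)
  filter_upwards [h3, self_mem_nhdsWithin, hj η hη R hR] with r k1 k2 k3 A hA hAm hAW
  have hr : (0 : ℝ) < r := k2
  have hsub : f '' A ⊆ ball (f z) ρ := by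
    rintro _ ⟨w, hw, rfl⟩
    have h4 : dist z w < R * r := mem_ball'.1 (hA hw).2
    have h5 := hC w (hA hw).1 (h4.le.trans (k1.le.trans (min_le_left _ _)))
    rw [mem_ball, dist_comm]
    have h6 : R * r < ρ / (|C| + 1) := k1.trans_le (min_le_right _ _)
    rw [lt_div_iff₀ (by positivity)] at h6
    have h7 : C * dist z w ≤ (|C| + 1) * (R * r) := by
      calc C * dist z w ≤ |C| * dist z w := mul_le_mul_of_nonneg_right (le_abs_self _) dist_nonneg
        _ ≤ (|C| + 1) * (R * r) := mul_le_mul (by linarith) h4.le dist_nonneg (by positivity)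
    linarith
  have h8 := hV (f '' A) hsub
  rw [← had] at h8
  set v := (volume : Measure (E n)) ((fun w => r⁻¹ • (t⁻¹ • L (f w))) '' A) with hvdef
  have h9 : (μH[n] : Measure (E n)) (L '' (f '' A)) = ENNReal.ofReal (c * (t * r) ^ n) * v := by
    have e1 : (fun w => r⁻¹ • (t⁻¹ • L (f w))) '' A = (t * r)⁻¹ • (L '' (f '' A)) := by
      rw [← image_smul, image_image, image_image]
      refine image_congr fun w _ => ?_
      rw [smul_smul, mul_inv, mul_comm]
    rw [hvdef, e1, vol_smul (by positivity), hv, ← mul_assoc, ← mul_assoc,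
      ← ENNReal.ofReal_mul (by positivity), ← ENNReal.ofReal_mul (by positivity)]
    have e2 : c * (t * r) ^ n * (t * r)⁻¹ ^ n * (1 / c) = 1 := by
      rw [inv_pow]; field_simp
    rw [e2, ENNReal.ofReal_one, one_mul]
  have h10 := k3 A hA hAm
  have hkr : 0 < k0 / (c * r ^ n) := by positivity
  have h11 : ENNReal.ofReal (J * k0) * mr M n c r A ≤
      ENNReal.ofReal (1 + ε) * v + ENNReal.ofReal (del / 2) := by
    have e3 : ENNReal.ofReal (J * k0) * mr M n c r A =
        ENNReal.ofReal (k0 / (c * r ^ n)) * (ENNReal.ofReal J * (μH[n] : Measure M) A) := by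
      rw [mr_apply, om (by positivity), om (by positivity)]
      congr 2
      field_simp
    rw [e3]
    calc ENNReal.ofReal (k0 / (c * r ^ n)) * (ENNReal.ofReal J * (μH[n] : Measure M) A)
        ≤ ENNReal.ofReal (k0 / (c * r ^ n)) * (ENNReal.ofReal ((1 + ε) * (sn κ a / a) ^ (n - 1)) *
            (ENNReal.ofReal (c * (t * r) ^ n) * v) + ENNReal.ofReal (η * r ^ n)) := by
          gcongr
          refine h10.trans (add_le_add ?_ le_rfl)
          rw [← h9]; exact h8
      _ = _ := by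
          rw [mul_add, om (by positivity), om (by positivity),
            ← ENNReal.ofReal_mul (by positivity)]
          have e5 : k0 / (c * r ^ n) * ((1 + ε) * (sn κ a / a) ^ (n - 1)) * (c * (t * r) ^ n)
              = 1 + ε := by
            rw [hk0, mul_pow, div_pow, div_pow]
            field_simp
          have e6 : k0 / (c * r ^ n) * (η * r ^ n) = del / 2 := by
            rw [← hη2]; field_simp
          rw [e5, e6]
  have h12 : ENNReal.ofReal (J * k0) * mr M n c r A ≤ ENNReal.ofReal (J * k0 * W) := by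
    rw [ENNReal.ofReal_mul (p := J * k0) (by positivity)]
    exact mul_le_mul_right hAW _
  have h13 := absorb (by positivity) hε.le (by positivity) h11 h12
  have e4 : J * (a / sn κ a) ^ (n - 1) * (t ^ n)⁻¹ = J * k0 := by rw [hk0]; ring
  rw [e4]
  refine h13.trans (add_le_add (measure_mono subset_closure) ?_)
  exact ENNReal.ofReal_le_ofReal (by linarith)

end

end PAsm

open PAsm

/-- `Blk_Point` from PE -/
theorem blk_Point_of (hPE : Blk_PE.{u}) : Blk_Point.{u} := by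
  intro M _ _ _ _ _ κ n s z L S X Y u u' Jm Jp hA h
  have hn := h.n_pos
  have hs := h.s_pos
  have hs1 := h.s_lt
  have hs' : 0 < 1 - s := by linarith
  have hG : PtG κ n s z L S X Y u u' :=
    { s_pos := h.s_pos, s_lt := h.s_lt, lg := h.reg.toLg, zS := h.zS, pos := h.pos, lt := h.lt,
      gx := h.gx, gy := h.gy, mono := h.mono, eq := h.eq, lip := h.lip }
  obtain ⟨θ, hθ⟩ : ∃ θ, θ = dist (X z) (Y z) := ⟨_, rfl⟩
  have hθ0 : 0 < θ := by rw [hθ]; exact h.pos
  have hπ : √κ * θ < Real.pi := by rw [hθ]; exact h.lt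
  have hza : dist z (X z) = s * θ := by rw [hθ]; exact hG.za
  have hzb : dist z (Y z) = (1 - s) * θ := by rw [hθ]; exact hG.zb
  have hsq : 0 ≤ √κ := Real.sqrt_nonneg κ
  have hsθ : s * θ ≤ θ := by nlinarith
  have hsθ' : (1 - s) * θ ≤ θ := by nlinarith
  have hπa : √κ * (s * θ) < Real.pi := (mul_le_mul_of_nonneg_left hsθ hsq).trans_lt hπ
  have hπb : √κ * ((1 - s) * θ) < Real.pi := (mul_le_mul_of_nonneg_left hsθ' hsq).trans_lt hπ
  have hsa : 0 < sn κ (s * θ) := H616.sn_pos (by positivity) fun _ => hπa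
  have hsb : 0 < sn κ ((1 - s) * θ) := H616.sn_pos (by positivity) fun _ => hπb
  have hst : 0 < sn κ θ := H616.sn_pos hθ0 fun _ => hπ
  -- `μH[n] = c • volume`
  obtain ⟨c', hc'0, hc'⟩ := H416.Reg.haus_volume n
  obtain ⟨c, hcc⟩ : ∃ c : ℝ, c = c' := ⟨_, rfl⟩
  have hc : 0 < c := by rw [hcc]; exact_mod_cast hc'0
  have hv : ∀ B : Set (E n), (volume : Measure (E n)) B = ENNReal.ofReal (1 / c) * μH[n] B := by
    intro B
    rw [hc', Measure.smul_apply]
    have e1 : c' • (volume : Measure (E n)) B = ENNReal.ofReal c * (volume : Measure (E n)) B := by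
      rw [hcc, ENNReal.ofReal_coe_nnreal]; rfl
    rw [e1, ← mul_assoc, ← ENNReal.ofReal_mul (by positivity)]
    have e2 : 1 / c * c = 1 := by field_simp
    rw [e2, ENNReal.ofReal_one, one_mul]
  -- `A`, `B`
  have hn0 : (n : ℝ) ≠ 0 := by positivity
  have hn0' : n ≠ 0 := by omega
  set A1 := Jm * (s * θ / sn κ (s * θ)) ^ (n - 1) * (s ^ n)⁻¹ with hA1
  set B1 := Jp * ((1 - s) * θ / sn κ ((1 - s) * θ)) ^ (n - 1) * ((1 - s) ^ n)⁻¹ with hB1
  have hJm := h.Jm_nonneg
  have hJp := h.Jp_nonneg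
  have hA10 : 0 ≤ A1 := by positivity
  have hB10 : 0 ≤ B1 := by positivity
  obtain ⟨A, hA0, hAn⟩ : ∃ A : ℝ, 0 ≤ A ∧ A ^ n = A1 :=
    ⟨A1 ^ ((n : ℝ)⁻¹), by positivity, Real.rpow_inv_natCast_pow hA10 hn0'⟩
  obtain ⟨B, hB0, hBn⟩ : ∃ B : ℝ, 0 ≤ B ∧ B ^ n = B1 :=
    ⟨B1 ^ ((n : ℝ)⁻¹), by positivity, Real.rpow_inv_natCast_pow hB10 hn0'⟩
  have hd1 : 0 < dA s := by unfold dA; positivity
  have hd2 : 0 < dB κ s θ := by unfold dB; positivity
  have key : (A + B) ^ n ≤ dA s * dB κ s θ ^ (n - 1) := by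
    refine H979.Blow.radial.{u} hn hd1 hd2 (e := ee z L Y) hG.norm_e hA0 hB0 ?_
    intro R hR del hdel
    have hPE' := hPE M κ n s z L S X Y u u' hn hA h.reg hG R hR del hdel
    rw [← hθ] at hPE'
    set V := ((volume : Measure (E n)) (closedBall (0 : E n) R)).toReal with hV
    have hVe : (volume : Measure (E n)) (closedBall (0 : E n) R) = ENNReal.ofReal V :=
      (ENNReal.ofReal_toReal measure_closedBall_lt_top.ne).symm
    have hV0 : 0 ≤ V := ENNReal.toReal_nonneg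
    obtain ⟨ε, hε, hε1, hε2⟩ : ∃ ε > 0, ε ≤ 1 ∧ ε * V ≤ del := by
      refine ⟨min 1 (del / (V + 1)), by positivity, min_le_left _ _, ?_⟩
      have h1 : min 1 (del / (V + 1)) * V ≤ del / (V + 1) * V :=
        mul_le_mul_of_nonneg_right (min_le_right _ _) hV0
      have h2 : del / (V + 1) * V ≤ del := by
        rw [div_mul_eq_mul_div, div_le_iff₀ (by positivity)]
        nlinarith
      exact h1.trans h2
    have hL2 := l2 hn hc hv h.reg h.dens hR hdel
    have hbd := bound hc hv h.reg.toLg hR hε (M := M)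
    obtain ⟨Cl, hCl⟩ := h.lip
    have hJa := ja hc hv h.reg.toLg hs (f := X) (by rw [hza]; positivity) (by rw [hza]; exact hπa)
      (by rw [hza]; exact hsa) hJm ⟨Cl, fun w hw h1 => (hCl w hw h1).1⟩ h.jm hR hdel
      (W := 2 * V) (by positivity)
    have hJb := ja hc hv h.reg.toLg hs' (f := Y) (by rw [hzb]; positivity) (by rw [hzb]; exact hπb)
      (by rw [hzb]; exact hsb) hJp ⟨Cl, fun w hw h1 => (hCl w hw h1).2⟩ h.jp hR hdel
      (W := 2 * V) (by positivity)
    obtain ⟨r, ⟨⟨⟨⟨⟨r1, r2⟩, r3⟩, r4⟩, r5⟩, r6⟩⟩ :=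
      (((((hPE'.and hL2).and hbd).and hJa).and hJb).and self_mem_nhdsWithin).exists
    have hr : (0 : ℝ) < r := r6
    have hr2 : 0 < r ^ 2 := by positivity
    rw [hza] at r4
    rw [hzb] at r5
    have hW : ∀ E' ⊆ S ∩ ball z (R * r), mr M n c r E' ≤ ENNReal.ofReal (2 * V) := by
      intro E' hE'
      have hE2 : E' ⊆ ball z (R * r) := hE'.trans inter_subset_right
      refine (r3 E' hE2).trans ?_
      rw [ENNReal.ofReal_mul (by norm_num)]
      refine mul_le_mul' (ENNReal.ofReal_le_ofReal (by linarith)) ?_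
      rw [← hVe]
      exact measure_mono (img_sub h.reg.toLg hr hE2)
    refine ⟨M, inferInstance, mr M n c r, S ∩ ball z (R * r), fun w => ka s z X u w / r ^ 2,
      fun w => kb s z Y u' w / r ^ 2, fun w => r⁻¹ • L w, fun w => r⁻¹ • (s⁻¹ • L (X w)),
      fun w => r⁻¹ • ((1 - s)⁻¹ • L (Y w)), ?_⟩
    have hQ : ∀ D1 D2 : ℝ, ∀ v : E n, D1 * inner ℝ (r⁻¹ • v) (ee z L Y) ^ 2
        + D2 * (‖r⁻¹ • v‖ ^ 2 - inner ℝ (r⁻¹ • v) (ee z L Y) ^ 2)
        = QQ D1 D2 (ee z L Y) v / r ^ 2 := by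
      intro D1 D2 v
      unfold QQ
      rw [real_inner_smul_left, norm_smul, Real.norm_of_nonneg (by positivity),
        real_inner_comm (ee z L Y) v]
      field_simp
    constructor
    · exact h.meas.inter measurableSet_ball
    · intro k
      have e1 : {w | w ∈ S ∩ ball z (R * r) ∧ ka s z X u w / r ^ 2 ≤ k} = ball z (R * r) ∩
          {w | w ∈ S ∧ dist (X w) z ^ 2 / (2 * s) - u w ≤
            k * r ^ 2 + (dist (X z) z ^ 2 / (2 * s) - u z)} := by
        ext w
        simp only [mem_setOf_eq, mem_inter_iff]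
        rw [div_le_iff₀ hr2]
        unfold ka
        constructor
        · rintro ⟨⟨h1, h2⟩, h3⟩; exact ⟨h2, h1, by linarith⟩
        · rintro ⟨h2, h1, h3⟩; exact ⟨⟨h1, h2⟩, by linarith⟩
      rw [e1]
      exact measurableSet_ball.inter (h.meas_x _)
    · intro k
      have e1 : {w | w ∈ S ∩ ball z (R * r) ∧ kb s z Y u' w / r ^ 2 ≤ k} = ball z (R * r) ∩
          {w | w ∈ S ∧ dist z (Y w) ^ 2 / (2 * (1 - s)) - u' w ≤
            k * r ^ 2 + (dist z (Y z) ^ 2 / (2 * (1 - s)) - u' z)} := by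
        ext w
        simp only [mem_setOf_eq, mem_inter_iff]
        rw [div_le_iff₀ hr2]
        unfold kb
        constructor
        · rintro ⟨⟨h1, h2⟩, h3⟩; exact ⟨h2, h1, by linarith⟩
        · rintro ⟨h2, h1, h3⟩; exact ⟨⟨h1, h2⟩, by linarith⟩
      rw [e1]
      exact measurableSet_ball.inter (h.meas_y _)
    · exact fun w hw => div_nonneg (hG.ka_nonneg hw.1) hr2.le
    · exact fun w hw => div_nonneg (hG.kb_nonneg hw.1) hr2.le
    · intro w hw
      have := img_sub h.reg.toLg hr (inter_subset_right : S ∩ ball z (R * r) ⊆ ball z (R * r))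
        ⟨w, hw, rfl⟩
      rwa [mem_closedBall, dist_zero_right] at this
    · exact r2
    · intro E' hE' _
      have hE2 : E' ⊆ ball z (R * r) := hE'.trans inter_subset_right
      have h1 := r3 E' hE2
      have h2 : (volume : Measure (E n)) ((fun w => r⁻¹ • L w) '' E') ≤ ENNReal.ofReal V := by
        rw [← hVe]; exact measure_mono (img_sub h.reg.toLg hr hE2)
      refine h1.trans ?_
      rw [ENNReal.ofReal_add (by norm_num) hε.le, ENNReal.ofReal_one, add_mul, one_mul]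
      refine add_le_add (measure_mono subset_closure) ?_
      refine (mul_le_mul_right h2 _).trans ?_
      rw [← ENNReal.ofReal_mul hε.le]
      exact ENNReal.ofReal_le_ofReal hε2
    · intro E' hE' hEm
      have := r4 E' hE' hEm (hW E' hE')
      rw [hAn]; exact this
    · intro E' hE' hEm
      have := r5 E' hE' hEm (hW E' hE')
      rw [hBn]; exact this
    · intro w hw w' hw'
      have h1 := r1.2 w hw.1 w' hw'.1 (mem_ball'.1 hw.2).le (mem_ball'.1 hw'.2).le
      have e1 : r⁻¹ • (s⁻¹ • L (X w)) + r⁻¹ • ((1 - s)⁻¹ • L (Y w')) =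
          r⁻¹ • (s⁻¹ • L (X w) + (1 - s)⁻¹ • L (Y w')) := by rw [smul_add]
      have e2 : ∀ v : E n, inner ℝ v (ee z L Y) ^ 2 / dA s
          + (‖v‖ ^ 2 - inner ℝ v (ee z L Y) ^ 2) / dB κ s θ =
          (dA s)⁻¹ * inner ℝ v (ee z L Y) ^ 2
          + (dB κ s θ)⁻¹ * (‖v‖ ^ 2 - inner ℝ v (ee z L Y) ^ 2) := by
        intro v; rw [div_eq_inv_mul, div_eq_inv_mul]
      simp only [e1]
      rw [e2, hQ]
      rw [div_div, ← add_div, mul_comm (r ^ 2) 2, ← div_div]
      rw [div_add' _ _ _ hr2.ne', div_le_div_iff_of_pos_right hr2]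
      exact h1
    · intro w hw
      have h1 := r1.1 w hw.1 (mem_ball'.1 hw.2).le
      show ka s z X u w / r ^ 2 + kb s z Y u' w / r ^ 2 ≤
        (dA s * inner ℝ (r⁻¹ • L w) (ee z L Y) ^ 2 + dB κ s θ *
          (‖r⁻¹ • L w‖ ^ 2 - inner ℝ (r⁻¹ • L w) (ee z L Y) ^ 2)) / 2 + del
      rw [hQ, div_div, ← add_div, mul_comm (r ^ 2) 2, ← div_div,
        div_add' _ _ _ hr2.ne', div_le_div_iff_of_pos_right hr2]
      exact h1
    · refine ⟨z, ⟨h.zS, mem_ball_self (by positivity)⟩, ?_, ?_⟩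
      · unfold ka; simp
      · unfold kb; simp
  have hfin := H979.Blow.claim hn hs hs1 hθ0 hsa hsb hst hA0 hB0 (by rw [hAn]) (by rw [hBn])
    (by unfold dA dB at key; exact key)
  rw [← hθ]
  unfold tn
  exact hfin

end Vale.Agent.P233.CDc
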